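import Vale.Agent.P254.SP.IfaceA
import Vale.Agent.P254.S.H151.Fin

/-! P254 line (SP_0), row TOP (helper151): `StmtFin P` and `StmtPos` give `StmtS 0`, hence
`NiceDDL 0 n` and the inequality of P254 for every convex body. -/

set_option autoImplicit false

open MeasureTheory Matrix

namespace Vale.Agent.P254.SP151

open Vale.Agent.P227.M Vale.Agent.P254.S Vale.Agent.P254.SP Vale.Agent.P254.S151

/-- the inequality for one potential is invariant under a linear change of the target -/
theorem sharp_of_lin {n : ℕ} {A : Matrix (Fin n) (Fin n) ℝ} (hA : A.det ≠ 0) {V : E n → ℝ}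
    {c C c' C' : ℝ} (hV : Reg V c C) (hW : Reg (fun y => V (lin A y)) c' C')
    (hpd : (covV fun y => V (lin A y)).PosDef)
    (h : 2 * (n : ℝ) + Real.log (covV fun y => V (lin A y)).det ≤
      2 * entV fun y => V (lin A y)) :
    2 * (n : ℝ) + Real.log (covV V).det ≤ 2 * entV V := by
  have h2 := entV_lin hA hV
  have h3 : Real.log (covV V).det =
      2 * Real.log |A.det| + Real.log (covV fun y => V (lin A y)).det := by
    rw [covV_lin hA hW, det_mul, det_mul, det_transpose]
    have e : A.det * (covV fun y => V (lin A y)).det * A.det =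
        |A.det| ^ 2 * (covV fun y => V (lin A y)).det := by
      rw [sq_abs]; ring
    rw [e, Real.log_mul (pow_ne_zero 2 (abs_ne_zero.2 hA)) hpd.det_pos.ne', Real.log_pow]
    push_cast
    ring
  rw [h2] at h
  rw [h3]
  linarith

/-- **TOP** -/
theorem stmtS0_of {P : F1} (hF : StmtFin P) (hP : StmtPos) (hPush : StmtPush) : StmtS 0 := by
  intro n V c C hV
  obtain ⟨A, c', C', hA, hW, φ, a, b, M, κ, U, s, hφ, hs, hg⟩ := hP P n V c C hV
  have h1 := hF n φ _ c' C' a b M κ hW hφ U s hs hg
  have h2 := sharp_of_lin hA hV hW (covV_posDef hφ (hPush n φ _ a b M κ hφ).1) h1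
  linarith

/-- `NiceDDL 0 n` -/
theorem niceDDL0_of {P : F1} (hF : StmtFin P) (hP : StmtPos) (hPush : StmtPush) (n : ℕ) :
    X.Loss.NiceDDL 0 n := niceDDL_of (stmtS0_of hF hP hPush) n

/-- the inequality of P254 -/
theorem isoConst_le_of {P : F1} (hF : StmtFin P) (hP : StmtPos) (hPush : StmtPush) {n : ℕ}
    (hn : 1 ≤ n) {K S : Set (Fin n → ℝ)} (hK : IsConvexBody K) (hS : IsSimplex S) :
    isoConst K ≤ isoConst S := by
  have h := X.Loss.isoConst_le_of_niceDDL hn (niceDDL0_of hF hP hPush (n + 1)) hK hS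
  rwa [zero_mul, zero_div, Real.exp_zero, one_mul] at h

end Vale.Agent.P254.SP151
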