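import Vale.Agent.P254.SP.IfaceB

/-! P254 line (SP_0), interface of the column certificate (helper151).

`ColIneq P ν b₁ w bw ρ …` is the inequality for ONE column `e` (`K e = q e`, `|e| = 1`); the sum over
the columns and the budgets (Bessel, kernels against `wσ - 1`) are done in `SP/H151/MainC.lean`. -/

set_option autoImplicit false

open MeasureTheory

namespace Vale.Agent.P254.SP151

open Vale.Agent.P227.M Vale.Agent.P254.S Vale.Agent.P254.SP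

variable {n : ℕ}

/-- kernel field `∑_j w(s_i,s_j) (uu_k)_ij (Uᵀ v)_j`; `kap f f' U s k v z i` is
`kk (fun x y => dd f f' x y - f' x) U s k v z i` -/
noncomputable def kk (w : ℝ → ℝ → ℝ) (U : E n → Matrix (Fin n) (Fin n) ℝ) (s : E n → Fin n → ℝ)
    (k : Fin n) (v : Fin n → ℝ) (z : E n) (i : Fin n) : ℝ :=
  ∑ j, w (s z i) (s z j) * uu U s k z i j * xx U v z j

/-- `∑_k kk w k (A_k e)` -/
noncomputable def kA (w : ℝ → ℝ → ℝ) (U : E n → Matrix (Fin n) (Fin n) ℝ) (s : E n → Fin n → ℝ)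
    (e : Fin n → ℝ) (z : E n) (i : Fin n) : ℝ :=
  ∑ k, kk w U s k ((AA U s k).mulVec e) z i

/-- the kernel of the last line of `StmtUps` -/
noncomputable def ck (P : F1) (x y : ℝ) : ℝ :=
  (dd P.r P.r' x y - P.r' x) + P.r x * (dd P.r' P.r'' x y - P.r'' x)
    - P.r' y * (dd P.r P.r' x y - P.r' y)

/-- `E |D F e|²` -/
noncomputable def nDF (U : E n → Matrix (Fin n) (Fin n) ℝ) (s : E n → Fin n → ℝ)
    (e : Fin n → ℝ) : ℝ := Ex Q (fun z => ∑ k, ∑ i, col U (Fa U s k) e z i ^ 2)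

/-- `E |F e|²` -/
noncomputable def nF (U : E n → Matrix (Fin n) (Fin n) ℝ) (s : E n → Fin n → ℝ)
    (e : Fin n → ℝ) : ℝ := Ex Q (fun z => ∑ i, col U (FF U s) e z i ^ 2)

/-- `E |Z e|²` -/
noncomputable def nZ (U : E n → Matrix (Fin n) (Fin n) ℝ) (s : E n → Fin n → ℝ)
    (e : Fin n → ℝ) : ℝ := Ex Q (fun z => ∑ i, col U (ZZ U s) e z i ^ 2)

/-- `c T_e` of 412/979 (`θ = σ/(1+σ)` in `mainB`), without the budgets -/
noncomputable def cT (P : F1) (U : E n → Matrix (Fin n) (Fin n) ℝ) (s : E n → Fin n → ℝ)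
    (q : ℝ) (e : Fin n → ℝ) (c σ : ℝ) : ℝ :=
  (c - (1 + 1 / σ) / 16) * (nDF U s e - nF U s e)
    - (c - 1) * Ex Q (fun z => ∑ k, ∑ i, be P U s e k z i ^ 2)
    - (1 + σ) * Ex Q (fun z => ∑ k, ∑ i, (be P U s e k z i - 1 / 4 * col U (Fa U s k) e z i) ^ 2)
    - Ex Q (fun z => ∑ i, (ae P U s q e z i - 1 / 4 * col U (FF U s) e z i) ^ 2)
    + (c - 1) * ((q - 1) * Ex Q (fun z => ∑ i,
          (P.r' (s z i) + P.r (s z i) * P.r'' (s z i)) * xx U e z i ^ 2)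
      + Ex Q (fun z => ∑ i, (P.r' (s z i) + P.r (s z i) * P.r'' (s z i)) * xx U e z i
        * col U (ZZ U s) e z i)
      + Ex Q (fun z => ∑ i, (P.r (s z i) + P.r (s z i) * P.r' (s z i)) * xx U e z i
        * col U (FF U s) e z i)
      - Ex Q (fun z => ∑ k, ∑ i, P.r' (s z i) ^ 2 * xx U ((AA U s k).mulVec e) z i
        * col U (Fa U s k) e z i)
      + Ex Q (fun z => ∑ i, xx U e z i * kA (ck P) U s e z i))
    - (c * Real.log c - c + 1)

/-- **the column certificate**: budgets `ν` (Bessel for `Z`), `b₁` (for `kap r r' e`), and a finite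
family of kernels `w m` with weights `bw m` (for `∑_k kk (w m) (A_k e)`); remainder `ρ`. The
constants `c`, `σ` may depend on `q`. In position `E G = 0`. -/
def StmtCol (P : F1) (ν b₁ : ℝ) {N : ℕ} (w : Fin N → ℝ → ℝ → ℝ) (bw : Fin N → ℝ) (ρ : ℝ) : Prop :=
  ∀ (n : ℕ) (φ V : E n → ℝ) (a b M κ : ℝ) (U : E n → Matrix (Fin n) (Fin n) ℝ)
    (s : E n → Fin n → ℝ), Dat P φ V a b M κ U s →
  (∀ i j, Ex Q (fun z => GG U s z i j) = 0) →
  ∀ (e : Fin n → ℝ) (q : ℝ), (KK U s).mulVec e = q • e → ∑ i, e i ^ 2 = 1 → 0 ≤ q →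
  ∃ c σ : ℝ, 0 < c ∧ 0 < σ ∧
    c * ρ * (nF U s e + min 1 ((q - 1) ^ 2)) ≤ cT P U s q e c σ
      + c * (-(ν * nDF U s e) + ν * q⁻¹ * nZ U s e
        + b₁ * Ex Q (fun z => ∑ k, ∑ i, kap P.r P.r' U s k e z i ^ 2)
        + ∑ m, bw m * (q⁻¹ * Ex Q (fun z => ∑ i, kA (w m) U s e z i ^ 2)))

end Vale.Agent.P254.SP151
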