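import Vale.Agent.P254.SP.H151.ColIface

/-! P254 line (SP_0), interface of the column certificate, two modes (helper151, helper20). -/

set_option autoImplicit false

open MeasureTheory

namespace Vale.Agent.P254.SP151

open Vale.Agent.P227.M Vale.Agent.P254.S Vale.Agent.P254.SP

variable {n : ℕ}

/-- mode 0 (no trial field: `Var ⟨e,∇φ⟩ ≤ E |M e|²`) -/
noncomputable def cT0 (P : F1) (U : E n → Matrix (Fin n) (Fin n) ℝ) (s : E n → Fin n → ℝ)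
    (q : ℝ) (e : Fin n → ℝ) (c : ℝ) : ℝ :=
  c * (nDF U s e - nF U s e)
    - c * Ex Q (fun z => ∑ k, ∑ i, be P U s e k z i ^ 2)
    + c * ((q - 1) * Ex Q (fun z => ∑ i,
          (P.r' (s z i) + P.r (s z i) * P.r'' (s z i)) * xx U e z i ^ 2)
      + Ex Q (fun z => ∑ i, (P.r' (s z i) + P.r (s z i) * P.r'' (s z i)) * xx U e z i
        * col U (ZZ U s) e z i)
      + Ex Q (fun z => ∑ i, (P.r (s z i) + P.r (s z i) * P.r' (s z i)) * xx U e z i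
        * col U (FF U s) e z i)
      - Ex Q (fun z => ∑ k, ∑ i, P.r' (s z i) ^ 2 * xx U ((AA U s k).mulVec e) z i
        * col U (Fa U s k) e z i)
      + Ex Q (fun z => ∑ i, xx U e z i * kA (ck P) U s e z i))
    + c - c * Real.log c - Ex Q (fun z => ∑ i, P.L (s z i) ^ 2 * xx U e z i ^ 2)

/-- the budgets of one column -/
noncomputable def budg (P : F1) (ν b₁ : ℝ) {N : ℕ} (w : Fin N → ℝ → ℝ → ℝ) (bw : Fin N → ℝ)
    (U : E n → Matrix (Fin n) (Fin n) ℝ) (s : E n → Fin n → ℝ) (q : ℝ) (e : Fin n → ℝ) : ℝ :=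
  -(ν * nDF U s e) + ν * q⁻¹ * nZ U s e
    + b₁ * Ex Q (fun z => ∑ k, ∑ i, kap P.r P.r' U s k e z i ^ 2)
    + ∑ m, bw m * (q⁻¹ * Ex Q (fun z => ∑ i, kA (w m) U s e z i ^ 2))

/-- mode 1 holds at the column `e` -/
def Mode1 (P : F1) (ν b₁ : ℝ) {N : ℕ} (w : Fin N → ℝ → ℝ → ℝ) (bw : Fin N → ℝ) (ρ : ℝ)
    (U : E n → Matrix (Fin n) (Fin n) ℝ) (s : E n → Fin n → ℝ) (q : ℝ) (e : Fin n → ℝ) : Prop :=
  ∃ c σ : ℝ, 0 < c ∧ 0 < σ ∧ c * ρ * (nF U s e + min 1 ((q - 1) ^ 2)) ≤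
    cT P U s q e c σ + c * budg P ν b₁ w bw U s q e

/-- mode 0 holds at the column `e` -/
def Mode0 (P : F1) (ν b₁ : ℝ) {N : ℕ} (w : Fin N → ℝ → ℝ → ℝ) (bw : Fin N → ℝ) (ρ : ℝ)
    (U : E n → Matrix (Fin n) (Fin n) ℝ) (s : E n → Fin n → ℝ) (q : ℝ) (e : Fin n → ℝ) : Prop :=
  ∃ c : ℝ, 0 < c ∧ c * ρ * (nF U s e + min 1 ((q - 1) ^ 2)) ≤
    cT0 P U s q e c + c * budg P ν b₁ w bw U s q e

/-- the column certificate with two modes -/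
def StmtCol2 (P : F1) (ν b₁ : ℝ) {N : ℕ} (w : Fin N → ℝ → ℝ → ℝ) (bw : Fin N → ℝ) (ρ : ℝ) : Prop :=
  ∀ (n : ℕ) (φ V : E n → ℝ) (a b M κ : ℝ) (U : E n → Matrix (Fin n) (Fin n) ℝ)
    (s : E n → Fin n → ℝ), Dat P φ V a b M κ U s →
  (∀ i j, Ex Q (fun z => GG U s z i j) = 0) →
  ∀ (e : Fin n → ℝ) (q : ℝ), (KK U s).mulVec e = q • e → ∑ i, e i ^ 2 = 1 → 0 ≤ q →
  Mode1 P ν b₁ w bw ρ U s q e ∨ Mode0 P ν b₁ w bw ρ U s q e

theorem StmtCol.col2 {P : F1} {ν b₁ : ℝ} {N : ℕ} {w : Fin N → ℝ → ℝ → ℝ} {bw : Fin N → ℝ} {ρ : ℝ}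
    (h : StmtCol P ν b₁ w bw ρ) : StmtCol2 P ν b₁ w bw ρ :=
  fun n φ V a b M κ U s hD h0 e q hq he hq0 =>
    Or.inl (h n φ V a b M κ U s hD h0 e q hq he hq0)

end Vale.Agent.P254.SP151
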