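import Vale.Agent.P254.SP.IfaceB
import Vale.Agent.P254.S.H151.Main
import Vale.Agent.P254.S.H979.Push

/-! P254 line (SP_0), rows CovQ and HAD (helper151): `StmtCovQ` and `StmtHad`. -/

set_option autoImplicit false

open MeasureTheory Matrix

namespace Vale.Agent.P254.SP151

open Vale.Agent.P227.M Vale.Agent.P254.S Vale.Agent.P254.SP Vale.Agent.P254.S151

/-- **SP-COVQ** -/
theorem stmtCovQ : StmtCovQ := by
  intro n φ V c C a b M κ hV hφ
  have hp := (H979.stmtPush n φ V a b M κ hφ).1
  refine ⟨covV_posDef hφ hp, fun e => ?_⟩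
  have h := cov_quad hφ hp e
  have e1 : e ⬝ᵥ (covV V *ᵥ e) = ∑ i, ∑ j, e i * covV V i j * e j := by
    simp only [dotProduct, mulVec, Finset.mul_sum]
    exact Finset.sum_congr rfl fun i _ => Finset.sum_congr rfl fun j _ => by ring
  have e2 : ff φ e = fe φ e := by
    funext z
    unfold ff fe
    rfl
  rw [e1, e2] at h
  exact h

/-- **SP-HAD** -/
theorem stmtHad : StmtHad := by
  intro n C hC e he c hc
  set V : Matrix (Fin n) (Fin n) ℝ := Matrix.of fun i p => e p i with hV
  have hVV : Vᵀ * V = 1 := by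
    ext p p'
    rw [mul_apply, one_apply]
    exact he p p'
  have h := log_det_le hC hVV (c := fun p => (c p)⁻¹) fun p => inv_pos.2 (hc p)
  refine h.trans (le_of_eq (Finset.sum_congr rfl fun p _ => ?_))
  have e1 : (Vᵀ * C * V) p p = ∑ i, ∑ j, e p i * C i j * e p j := by
    rw [Matrix.mul_assoc, mul_apply]
    refine Finset.sum_congr rfl fun i _ => ?_
    rw [mul_apply, Finset.mul_sum]
    refine Finset.sum_congr rfl fun j _ => ?_
    rw [transpose_apply, hV, of_apply, of_apply]
    ring
  rw [e1, Real.log_inv]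
  ring

end Vale.Agent.P254.SP151
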