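import Vale.Agent.P254.SP.H151.MainD
import Vale.Agent.P254.SP.H151.ColIface2
import Vale.Agent.P254.S.H129.Poi

/-! P254 line (SP_0), MAIN with two modes (helper151). -/

set_option autoImplicit false

open MeasureTheory Matrix

namespace Vale.Agent.P254.SP151

open Vale.Agent.P227.M Vale.Agent.P254.S Vale.Agent.P254.SP Vale.Agent.P254.SP649
open Vale.Agent.P254.S130 (gQ MBM BM MBL BL gQ_prob)

variable {n : ℕ} {P : F1} {φ V : E n → ℝ} {a b M κ : ℝ}
  {U : E n → Matrix (Fin n) (Fin n) ℝ} {s : E n → Fin n → ℝ}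

/-- Poincaré for a column: `Var ⟨e,∇φ⟩ ≤ E |M e|²` -/
theorem var_poi (h : BP φ V a b M κ) (hF : Fr P φ U s) (e : Fin n → ℝ) :
    Ex Q (fun z => fe φ e z ^ 2) - (Ex Q (fe φ e)) ^ 2 ≤
      Ex Q (fun z => ∑ i, P.L (s z i) ^ 2 * xx U e z i ^ 2) := by
  have e0 : S151.ff φ e = fe φ e := by
    funext z
    unfold S151.ff fe
    rfl
  have hL : LipschitzWith (Real.toNNReal (∑ _i : Fin n, ∑ j, |b| * |e j|)) (S151.ff φ e) := by
    refine lipschitzWith_of_nnnorm_fderiv_le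
      ((S151.contDiff_ff h.C2 e).differentiable (by norm_num)) fun z => ?_
    rw [← NNReal.coe_le_coe, coe_nnnorm, Real.coe_toNNReal _ (by positivity)]
    exact S151.fderiv_ff_bound h e z
  have h1 := S129.stmtPoi n (S151.ff φ e) _ hL
  rw [e0] at h1
  refine h1.trans (le_of_eq ?_)
  congr 1
  funext z
  rw [← e0]
  have e1 : ∀ i, pd i (S151.ff φ e) z = (fc U s P.L z *ᵥ e) i := fun i => by
    rw [S151.pd_ff h.C2 e i z, hF.dec z]
  simp only [e1]
  rw [← fv'_sq hF (fun z => fc U s P.L z *ᵥ e) z]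
  refine Finset.sum_congr rfl fun i _ => ?_
  unfold fv' xx
  rw [frame_fc_vec hF]
  ring

theorem col_le0 (h : BP φ V a b M κ) (hF : Fr P φ U s) {e : Fin n → ℝ} {q : ℝ}
    (hq : (KK U s).mulVec e = q • e) (he : ∑ i, e i ^ 2 = 1) {c : ℝ} (hc : 0 < c) :
    cT0 P U s q e c / c ≤ nDF U s e - nF U s e + Ups P U s e - Real.log c
      - (Ex Q (fun z => fe φ e z ^ 2) - (Ex Q (fe φ e)) ^ 2) / c := by
  have h1 := var_poi h hF e
  have h2 := H545.stmtUps P n φ V a b M κ U s ⟨h, hF⟩ e q hq he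
  have e3 : Ex Q (fun z => ∑ k, ∑ i, ∑ j, xx U e z i * uu U s k z i j *
        xx U ((AA U s k).mulVec e) z j *
        ((dd P.r P.r' (s z i) (s z j) - P.r' (s z i))
          + P.r (s z i) * (dd P.r' P.r'' (s z i) (s z j) - P.r'' (s z i))
          - P.r' (s z j) * (dd P.r P.r' (s z i) (s z j) - P.r' (s z j)))) =
      Ex Q (fun z => ∑ i, xx U e z i * kA (ck P) U s e z i) := by
    congr 1
    funext z
    rw [Finset.sum_comm]
    refine Finset.sum_congr rfl fun i _ => ?_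
    unfold kA kk ck
    rw [Finset.mul_sum]
    refine Finset.sum_congr rfl fun k _ => ?_
    rw [Finset.mul_sum]
    exact Finset.sum_congr rfl fun j _ => by ring
  rw [e3] at h2
  rw [div_le_iff₀ hc]
  have e4 : (nDF U s e - nF U s e + Ups P U s e - Real.log c
      - (Ex Q (fun z => fe φ e z ^ 2) - (Ex Q (fe φ e)) ^ 2) / c) * c =
      c * (nDF U s e - nF U s e) + c * Ups P U s e - c * Real.log c
      - (Ex Q (fun z => fe φ e z ^ 2) - (Ex Q (fe φ e)) ^ 2) := by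
    field_simp
  rw [e4, h2]
  unfold cT0
  linarith

/-- the sum over the columns, two modes -/
theorem main_sum2 {ν b₁ C₁ : ℝ} {N : ℕ}
    {w : Fin N → ℝ → ℝ → ℝ} {bw Cw : Fin N → ℝ} {ρ : ℝ} (hν : 0 ≤ ν)
    (hK : KerBd P b₁ C₁ w bw Cw) (hCol : StmtCol2 P ν b₁ w bw ρ) {c C : ℝ} (hV : Reg V c C)
    (h : BP φ V a b M κ) (hF : Fr P φ U s) (h0 : ∀ i j, Ex Q (fun z => GG U s z i j) = 0)
    {e : Fin n → Fin n → ℝ} {q : Fin n → ℝ}
    (he : ∀ p p', ∑ i, e p i * e p' i = if p = p' then 1 else 0)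
    (hq : ∀ p, (KK U s).mulVec (e p) = q p • e p) (hq0 : ∀ p, 0 ≤ q p) :
    2 * (n : ℝ) + Real.log (covV V).det
      + ρ * ∑ p, (nF U s (e p) + min 1 ((q p - 1) ^ 2)) ≤ 2 * entV V := by
  have hn : ∀ p, ∑ i, e p i ^ 2 = 1 := fun p => by
    have := he p p
    simpa only [if_true, ← _root_.sq] using this
  have key : ∀ p, ∃ γ : ℝ, 0 < γ ∧ ρ * (nF U s (e p) + min 1 ((q p - 1) ^ 2))
      - budg P ν b₁ w bw U s (q p) (e p) ≤
      nDF U s (e p) - nF U s (e p) + Ups P U s (e p) - Real.log γ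
      - (Ex Q (fun z => fe φ (e p) z ^ 2) - (Ex Q (fe φ (e p))) ^ 2) / γ := by
    intro p
    rcases hCol n φ V a b M κ U s ⟨h, hF⟩ h0 (e p) (q p) (hq p) (hn p) (hq0 p) with hc | hc
    · obtain ⟨γ, σ, hγ, hσ, hcol⟩ := hc
      refine ⟨γ, hγ, ?_⟩
      have h1 := col_le H692.stmtVar SP512.stmtByp1 H545.stmtUps h hF h0 (hq p) (hn p) hγ hσ
      refine le_trans ?_ h1
      rw [le_div_iff₀ hγ]
      linarith
    · obtain ⟨γ, hγ, hcol⟩ := hc
      refine ⟨γ, hγ, ?_⟩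
      have h1 := col_le0 h hF (hq p) (hn p) hγ
      refine le_trans ?_ h1
      rw [le_div_iff₀ hγ]
      linarith
  choose γ hγ hp using key
  have hA := mainA hV h hF he hγ
  have hs := Finset.sum_le_sum (s := Finset.univ) fun p _ => hp p
  unfold budg at hs
  have e1 := sum_aux ρ ν b₁ (fun p => nF U s (e p) + min 1 ((q p - 1) ^ 2))
    (fun p => nDF U s (e p)) (fun p => (q p)⁻¹ * nZ U s (e p))
    (fun p => Ex Q (fun z => ∑ k, ∑ i, kap P.r P.r' U s k (e p) z i ^ 2))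
    (fun m p => bw m * ((q p)⁻¹ * Ex Q (fun z => ∑ i, kA (w m) U s (e p) z i ^ 2)))
  simp only [← mul_assoc ν] at e1
  rw [e1] at hs
  have hw1 : Continuous fun p : ℝ × ℝ => dd P.r P.r' p.1 p.2 - P.r' p.1 :=
    (SP127.dd_continuous P.hr (c_r' P)).sub ((c_r' P).comp continuous_fst)
  have k1 : ∑ p, Ex Q (fun z => ∑ k, ∑ i, kap P.r P.r' U s k (e p) z i ^ 2) ≤ C₁ * Xtr P U s := by
    simp only [kap_eq]
    rw [sum_kk h hF (w := fun x y => dd P.r P.r' x y - P.r' x) hw1 he]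
    exact ker_le h hF (w := fun x y => dd P.r P.r' x y - P.r' x) hw1 hK.k1
  have k2 : ∀ m, ∑ p, (q p)⁻¹ * Ex Q (fun z => ∑ i, kA (w m) U s (e p) z i ^ 2) ≤
      Cw m * Xtr P U s := fun m =>
    (sum_kA h hF (hK.cont m) he hq).trans (ker_le h hF (hK.cont m) (hK.kw m))
  have k3 : ∑ m, ∑ p, bw m * ((q p)⁻¹ * Ex Q (fun z => ∑ i, kA (w m) U s (e p) z i ^ 2)) ≤
      (∑ m, bw m * Cw m) * Xtr P U s := by
    rw [Finset.sum_mul]
    refine Finset.sum_le_sum fun m _ => ?_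
    rw [← Finset.mul_sum, mul_assoc]
    exact mul_le_mul_of_nonneg_left (k2 m) (hK.bw0 m)
  have kZ := mul_le_mul_of_nonneg_left (sum_nZ h hF he hq) hν
  have kX : 0 ≤ Xtr P U s := by
    unfold Xtr
    rw [S130.Ex_eq]
    refine integral_nonneg fun z => Finset.sum_nonneg fun k _ => Finset.sum_nonneg fun i _ =>
      Finset.sum_nonneg fun j _ => mul_nonneg (by linarith [hK.wσ1 (s z i) (s z j)]) (sq_nonneg _)
  have k4 := mul_le_mul_of_nonneg_left k1 hK.b1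
  have k5 : (b₁ * C₁ + ∑ m, bw m * Cw m) * Xtr P U s ≤ Xtr P U s := by
    have := mul_le_mul_of_nonneg_right hK.sum kX
    rwa [one_mul] at this
  have hA' : 2 * (n : ℝ) + Real.log (covV V).det + Xtr P U s
      + ∑ p, (nDF U s (e p) - nF U s (e p) + Ups P U s (e p) - Real.log (γ p)
      - (Ex Q (fun z => fe φ (e p) z ^ 2) - (Ex Q (fe φ (e p))) ^ 2) / γ p) ≤ 2 * entV V := hA
  rw [add_mul] at k5
  linarith

/-- **the stability form, two modes** -/
theorem stab2 {ν b₁ C₁ : ℝ} {N : ℕ} {w : Fin N → ℝ → ℝ → ℝ} {bw Cw : Fin N → ℝ} {ρ : ℝ}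
    (hν : 0 ≤ ν) (hρ : 0 < ρ) (hK : KerBd P b₁ C₁ w bw Cw) (hCol : StmtCol2 P ν b₁ w bw ρ) :
    E72.StmtStab P := by
  intro n
  refine ⟨ρ, hρ, ?_⟩
  intro φ V c C a b M κ hV h U s hF h0
  obtain ⟨e, q, he, hq, hq0⟩ := SP427.exists_eig' (A := AA U s) (AA_symm U s)
  have h1 := main_sum2 hν hK hCol hV h hF h0 he hq hq0
  rw [Finset.sum_add_distrib, sum_nF' h hF he] at h1
  have h2 : min 1 (E72.dfK U s) ≤ ∑ p, min 1 ((q p - 1) ^ 2) := by
    rw [dfK_eq h hF he hq]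
    exact min_sum_le
  have h3 := mul_le_mul_of_nonneg_left h2 hρ.le
  linarith

end Vale.Agent.P254.SP151
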