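import Vale.Agent.P254.SP.H38.Forms
import Vale.Agent.P254.SP.H151.MainE

/-! P254 line (SP_0): the three kernels of the column certificate and `KerBd` (helper151). -/

set_option autoImplicit false

open MeasureTheory Matrix

namespace Vale.Agent.P254.SP151

open Vale.Agent.P227.M Vale.Agent.P254.S Vale.Agent.P254.SP

/-- the combined commutator kernel of the columns `q ≥ 4` -/
noncomputable def ktot (P : F1) (μ β x y : ℝ) : ℝ :=
  ck P x y - μ * (dd (SP38.th P) (SP38.th1 P) x y - SP38.th1 P x) - β * (P.r' y ^ 2 - P.r' x ^ 2)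

/-- the three kernels: `r'`-kernel, `ck`, `ktot (43/100) (1/2) / √r'(x)` -/
noncomputable def wfam (P : F1) : Fin 3 → ℝ → ℝ → ℝ :=
  ![fun x y => dd P.r' P.r'' x y - P.r'' x, ck P,
    fun x y => ktot P (43 / 100) (1 / 2) x y / Real.sqrt (P.r' x)]

/-- the weights `30, 4, 5` -/
noncomputable def bfam : Fin 3 → ℝ := ![30, 4, 5]

theorem hasDerivAt_th (P : F1) (x : ℝ) : HasDerivAt (SP38.th P) (SP38.th1 P x) x := by
  have h := (P.hr x).add ((P.hr x).mul (P.hr' x))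
  refine h.congr_deriv ?_
  unfold SP38.th1
  ring

theorem cont_th1 (P : F1) : Continuous (SP38.th1 P) := by
  have h1 := c_r P
  have h2 := c_r' P
  have h3 := P.r''_cont
  unfold SP38.th1
  fun_prop

theorem cont_ck (P : F1) : Continuous fun p : ℝ × ℝ => ck P p.1 p.2 := by
  have h1 := c_r P
  have h2 := c_r' P
  have h3 := P.r''_cont
  have h4 := SP127.dd_continuous P.hr h2
  have h5 := SP127.dd_continuous P.hr' h3
  unfold ck
  fun_prop

theorem cont_ktot (P : F1) (μ β : ℝ) : Continuous fun p : ℝ × ℝ => ktot P μ β p.1 p.2 := by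
  have h1 := cont_ck P
  have h2 := c_r' P
  have h3 := cont_th1 P
  have h4 := SP127.dd_continuous (hasDerivAt_th P) h3
  unfold ktot
  fun_prop

theorem cont_wfam (P : F1) (m : Fin 3) : Continuous fun p : ℝ × ℝ => wfam P m p.1 p.2 := by
  fin_cases m
  · have h3 := P.r''_cont
    have h5 := SP127.dd_continuous P.hr' h3
    show Continuous fun p : ℝ × ℝ => dd P.r' P.r'' p.1 p.2 - P.r'' p.1
    fun_prop
  · exact cont_ck P
  · show Continuous fun p : ℝ × ℝ => ktot P (43 / 100) (1 / 2) p.1 p.2 / Real.sqrt (P.r' p.1)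
    refine (cont_ktot P _ _).div ?_ fun p => (Real.sqrt_pos.2 (P.r'_pos p.1)).ne'
    have h2 := c_r' P
    fun_prop

/-- **kernel bounds** in the form used by `stab2` -/
theorem kerBd_of {P : F1} {b₁ C₁ C₂ C₃ Ct : ℝ} (hb : 0 ≤ b₁) (hC : 0 < C₁)
    (h1 : ∀ x y, (dd P.r P.r' x y - P.r' x) ^ 2 ≤ C₁ * (wσ P x y - 1))
    (h2 : ∀ x y, (dd P.r' P.r'' x y - P.r'' x) ^ 2 ≤ C₂ * (wσ P x y - 1))
    (h3 : ∀ x y, ck P x y ^ 2 ≤ C₃ * (wσ P x y - 1))
    (h4 : ∀ x y, ktot P (43 / 100) (1 / 2) x y ^ 2 ≤ Ct * P.r' x * (wσ P x y - 1))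
    (hsum : b₁ * C₁ + 30 * C₂ + 4 * C₃ + 5 * Ct ≤ 1) :
    KerBd P b₁ C₁ (wfam P) bfam ![C₂, C₃, Ct] := by
  refine ⟨hb, ?_, cont_wfam P, h1, ?_, ?_, ?_⟩
  · intro m
    fin_cases m
    · show (0 : ℝ) ≤ 30; norm_num
    · show (0 : ℝ) ≤ 4; norm_num
    · show (0 : ℝ) ≤ 5; norm_num
  · intro m x y
    fin_cases m
    · exact h2 x y
    · exact h3 x y
    · show (ktot P (43 / 100) (1 / 2) x y / Real.sqrt (P.r' x)) ^ 2 ≤ Ct * (wσ P x y - 1)
      rw [div_pow, Real.sq_sqrt (P.r'_pos x).le, div_le_iff₀ (P.r'_pos x)]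
      have := h4 x y
      linarith
  · intro x y
    have h5 := (sq_nonneg _).trans (h1 x y)
    have h6 := (mul_nonneg_iff_of_pos_left hC).1 h5
    linarith
  · rw [Fin.sum_univ_three]
    show b₁ * C₁ + (30 * C₂ + 4 * C₃ + 5 * Ct) ≤ 1
    linarith

end Vale.Agent.P254.SP151
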