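import Vale.Agent.P254.SP.H151.Glue
import Vale.Agent.P254.SP.H127.PW0

/-! P254 line (SP_0): the three kernels with a free parameter `μ` and a free weight `b₃` (helper151). -/

set_option autoImplicit false

open MeasureTheory Matrix

namespace Vale.Agent.P254.SP151

open Vale.Agent.P227.M Vale.Agent.P254.S Vale.Agent.P254.SP

/-- the three kernels: `r'`-kernel, `ck`, `ktot μ (1/2) / √r'(x)` -/
noncomputable def wfm (P : F1) (μ : ℝ) : Fin 3 → ℝ → ℝ → ℝ :=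
  ![fun x y => dd P.r' P.r'' x y - P.r'' x, ck P,
    fun x y => ktot P μ (1 / 2) x y / Real.sqrt (P.r' x)]

/-- the weights `30, 4, b` -/
noncomputable def bfm (b : ℝ) : Fin 3 → ℝ := ![30, 4, b]

theorem wfm_eq (P : F1) : wfm P (43 / 100) = wfam P := rfl

theorem bfm_eq : bfm 5 = bfam := rfl

theorem cont_wfm (P : F1) (μ : ℝ) (m : Fin 3) :
    Continuous fun p : ℝ × ℝ => wfm P μ m p.1 p.2 := by
  fin_cases m
  · exact cont_wfam P 0
  · exact cont_ck P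
  · show Continuous fun p : ℝ × ℝ => ktot P μ (1 / 2) p.1 p.2 / Real.sqrt (P.r' p.1)
    refine (cont_ktot P _ _).div ?_ fun p => (Real.sqrt_pos.2 (P.r'_pos p.1)).ne'
    have h2 := c_r' P
    fun_prop

theorem kerBd_m {P : F1} {b₁ C₁ C₂ C₃ Ct μ b : ℝ} (hb : 0 ≤ b₁) (hC : 0 < C₁) (hb3 : 0 ≤ b)
    (h1 : ∀ x y, (dd P.r P.r' x y - P.r' x) ^ 2 ≤ C₁ * (wσ P x y - 1))
    (h2 : ∀ x y, (dd P.r' P.r'' x y - P.r'' x) ^ 2 ≤ C₂ * (wσ P x y - 1))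
    (h3 : ∀ x y, ck P x y ^ 2 ≤ C₃ * (wσ P x y - 1))
    (h4 : ∀ x y, ktot P μ (1 / 2) x y ^ 2 ≤ Ct * P.r' x * (wσ P x y - 1))
    (hsum : b₁ * C₁ + 30 * C₂ + 4 * C₃ + b * Ct ≤ 1) :
    KerBd P b₁ C₁ (wfm P μ) (bfm b) ![C₂, C₃, Ct] := by
  refine ⟨hb, ?_, cont_wfm P μ, h1, ?_, ?_, ?_⟩
  · intro m
    fin_cases m
    · show (0 : ℝ) ≤ 30; norm_num
    · show (0 : ℝ) ≤ 4; norm_num
    · exact hb3
  · intro m x y
    fin_cases m
    · exact h2 x y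
    · exact h3 x y
    · show (ktot P μ (1 / 2) x y / Real.sqrt (P.r' x)) ^ 2 ≤ Ct * (wσ P x y - 1)
      rw [div_pow, Real.sq_sqrt (P.r'_pos x).le, div_le_iff₀ (P.r'_pos x)]
      have := h4 x y
      linarith
  · intro x y
    have h5 := (sq_nonneg _).trans (h1 x y)
    have h6 := (mul_nonneg_iff_of_pos_left hC).1 h5
    linarith
  · rw [Fin.sum_univ_three]
    show b₁ * C₁ + (30 * C₂ + 4 * C₃ + b * Ct) ≤ 1
    linarith

/-- the column `q` is certified in mode 1 -/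
def PM1 (P : F1) (μ b q : ℝ) : Prop :=
  ∃ m : SP38.Mult 3, SP38.PW P q (2 / 25) 10 (1 / 1000) (wfm P μ) (bfm b) 0 m

/-- the column `q` is certified in mode 0 -/
def PM0 (P : F1) (μ b q : ℝ) : Prop :=
  ∃ m : SP127.Mult0 3, SP127.PW0 P q (2 / 25) 10 (1 / 1000) (wfm P μ) (bfm b) m

/-- **`StmtStab P` from the pointwise forms** (`μ = 2/5`, `b = 6`, `Ct = 1/25`, or
`μ = 43/100`, `b = 5`, `Ct = 1/20`) -/
theorem stab_glue2 (P : F1) {μ b Ct : ℝ} (hb : 0 ≤ b) (hC : b * Ct ≤ 134 / 500)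
    (h2 : ∀ x y, (dd P.r' P.r'' x y - P.r'' x) ^ 2 ≤ 3 / 400 * (wσ P x y - 1))
    (h4 : ∀ x y, ktot P μ (1 / 2) x y ^ 2 ≤ Ct * P.r' x * (wσ P x y - 1))
    (hr : ∀ q : ℝ, 0 ≤ q → PM1 P μ b q ∨ PM0 P μ b q) :
    E72.StmtStab P := by
  have hK : KerBd P 10 (6627 / 250000) (wfm P μ) (bfm b) ![3 / 400, 240267 / 4000000, Ct] :=
    kerBd_m (by norm_num) (by norm_num) hb (H958.K1 P) h2 (H958.K3 P) h4 (by linarith)
  refine stab2 (ν := 2 / 25) (ρ := 1 / 1000) (by norm_num) (by norm_num) hK ?_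
  intro n φ V a b' M κ U s hD h0 e q hq he hq0
  rcases hr q hq0 with ⟨m, hm⟩ | ⟨m, hm⟩
  · exact Or.inl (SP38.mode1_of SP.H515.stmtLin (cont_wfm P μ) (fun x y => rfl) hD h0 hq he hm)
  · exact Or.inr (SP127.mode0_of hD h0 hq he (cont_wfm P μ) hm)

end Vale.Agent.P254.SP151
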