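import Vale.Agent.P254.SP.H151.Hi
import Vale.Agent.P254.SP.H425.R47
import Vale.Agent.P254.H721.R47

/-! P254 line (SP_0): the columns `4 ≤ q ≤ 7` (helper425, helper721) in the form of the glue
(helper151). -/

set_option autoImplicit false

open MeasureTheory Matrix

namespace Vale.Agent.P254.SP151

open Vale.Agent.P227.M Vale.Agent.P254.S Vale.Agent.P254.SP

theorem mid47 (P : F1) (q : ℝ) (h4 : 4 ≤ q) (h7 : q ≤ 7) : PWm1 P q :=
  ⟨_, SP425.pw_47 P H721.phiB_4 H721.phiB_7 h4 h7⟩

end Vale.Agent.P254.SP151
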