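import Vale.Agent.P254.SP.H151.Fam
import Vale.Agent.P254.SP.H38.Col
import Vale.Agent.P254.SP.H127.Forms0
import Vale.Agent.P254.SP.H515.Lin
import Vale.Agent.P254.SP.H958.Fin

/-! P254 line (SP_0): `StmtStab P` from the pointwise forms of the two modes (helper151). -/

set_option autoImplicit false

open MeasureTheory Matrix

namespace Vale.Agent.P254.SP151

open Vale.Agent.P227.M Vale.Agent.P254.S Vale.Agent.P254.SP

/-- the column `q` is certified in mode 1 -/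
def PWm1 (P : F1) (q : ℝ) : Prop :=
  ∃ m : SP38.Mult 3, SP38.PW P q (2 / 25) 10 (1 / 1000) (wfam P) bfam 0 m

/-- the column `q` is certified in mode 0 -/
def PWm0 (P : F1) (q : ℝ) : Prop :=
  ∃ m : SP127.Mult0 3, SP127.PW0 P q (2 / 25) 10 (1 / 1000) (wfam P) bfam m

theorem kerBd_fin (P : F1)
    (h2 : ∀ x y, (dd P.r' P.r'' x y - P.r'' x) ^ 2 ≤ 3 / 400 * (wσ P x y - 1))
    (h4 : ∀ x y, ktot P (43 / 100) (1 / 2) x y ^ 2 ≤ 1 / 20 * P.r' x * (wσ P x y - 1)) :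
    KerBd P 10 (6627 / 250000) (wfam P) bfam ![3 / 400, 240267 / 4000000, 1 / 20] :=
  kerBd_of (by norm_num) (by norm_num) (H958.K1 P) h2 (H958.K3 P) h4 (by norm_num)

theorem stab_glue (P : F1)
    (h2 : ∀ x y, (dd P.r' P.r'' x y - P.r'' x) ^ 2 ≤ 3 / 400 * (wσ P x y - 1))
    (h4 : ∀ x y, ktot P (43 / 100) (1 / 2) x y ^ 2 ≤ 1 / 20 * P.r' x * (wσ P x y - 1))
    (hm0 : ∀ (n : ℕ) (φ V : E n → ℝ) (a b M κ : ℝ) (U : E n → Matrix (Fin n) (Fin n) ℝ)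
      (s : E n → Fin n → ℝ), Dat P φ V a b M κ U s →
      (∀ i j, Ex Q (fun z => GG U s z i j) = 0) →
      ∀ (e : Fin n → ℝ) (q : ℝ), (KK U s).mulVec e = q • e → ∑ i, e i ^ 2 = 1 → 0 < q →
      ∀ m : SP127.Mult0 3, SP127.PW0 P q (2 / 25) 10 (1 / 1000) (wfam P) bfam m →
      Mode0 P (2 / 25) 10 (wfam P) bfam (1 / 1000) U s q e)
    (hr : ∀ q : ℝ, 0 ≤ q → PWm1 P q ∨ (0 < q ∧ PWm0 P q)) :
    E72.StmtStab P := by
  refine stab2 (ν := 2 / 25) (ρ := 1 / 1000) (by norm_num) (by norm_num) (kerBd_fin P h2 h4) ?_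
  intro n φ V a b M κ U s hD h0 e q hq he hq0
  rcases hr q hq0 with ⟨m, hm⟩ | ⟨hq1, m, hm⟩
  · exact Or.inl (SP38.mode1_of SP.H515.stmtLin (cont_wfam P) (fun x y => rfl) hD h0 hq he hm)
  · exact Or.inr (hm0 n φ V a b M κ U s hD h0 e q hq he hq1 m hm)

end Vale.Agent.P254.SP151
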