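import Vale.Agent.P254.SP.H151.Hi
import Vale.Agent.P254.SP.H151.Mid
import Vale.Agent.P254.SP.H20.H712

/-! P254 line (SP_0): `StmtStab` from the kernel `ktot` and the range `[12,40]` (helper151). -/

set_option autoImplicit false

open MeasureTheory Matrix

namespace Vale.Agent.P254.SP151

open Vale.Agent.P227.M Vale.Agent.P254.S Vale.Agent.P254.SP

theorem stab_final2
    (h4 : ∀ x y, ktot H156.F1inst (43 / 100) (1 / 2) x y ^ 2 ≤
      1 / 20 * H156.F1inst.r' x * (wσ H156.F1inst x y - 1))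
    (h1240 : ∀ q : ℝ, 12 ≤ q → q ≤ 40 → PWm0 H156.F1inst q) :
    E72.StmtStab H156.F1inst :=
  stab_final1 h4 (mid47 H156.F1inst) SP20.h712 h1240

end Vale.Agent.P254.SP151
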