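import Vale.Agent.P254.SP.H151.Lo
import Vale.Agent.P254.SP.H958.K2
import Vale.Agent.P254.SP.H674.Q40PW

/-! P254 line (SP_0): the columns `q ≥ 40` (helper674) in the form of the glue (helper151). -/

set_option autoImplicit false

open MeasureTheory Matrix

namespace Vale.Agent.P254.SP151

open Vale.Agent.P227.M Vale.Agent.P254.S Vale.Agent.P254.SP

theorem hi40 (q : ℝ) (h : 40 ≤ q) : PWm0 H156.F1inst q := ⟨_, H674.pw0_40 h⟩

/-- **`StmtStab` from the kernel `ktot` and the ranges `[4,7]`, `[7,12]`, `[12,40]`** -/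
theorem stab_final1
    (h4 : ∀ x y, ktot H156.F1inst (43 / 100) (1 / 2) x y ^ 2 ≤
      1 / 20 * H156.F1inst.r' x * (wσ H156.F1inst x y - 1))
    (h47 : ∀ q : ℝ, 4 ≤ q → q ≤ 7 → PWm1 H156.F1inst q)
    (h712 : ∀ q : ℝ, 7 ≤ q → q ≤ 12 → PWm1 H156.F1inst q)
    (h1240 : ∀ q : ℝ, 12 ≤ q → q ≤ 40 → PWm0 H156.F1inst q) :
    E72.StmtStab H156.F1inst :=
  stab_final H156.F1inst (H958.K2 H156.F1inst) h4 h47 h712 h1240 hi40

end Vale.Agent.P254.SP151
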