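import Vale.Agent.P254.SP.H807.KtA
import Vale.Agent.P254.SP.H222.Tail
import Vale.Agent.P254.H721.Env

/-! P254 line (SP_0): the one-variable fact `Dn` of the kernel `ktot` (helper151). -/

set_option autoImplicit false

open MeasureTheory Set Filter Topology

namespace Vale.Agent.P254.SP151

open Vale.Agent.P254.H721 Vale.Agent.P254.H721.Cert

/-- the inequality `Dn` in abstract letters -/
theorem dn_core {S ν r2 w1 nw s : ℝ} (hS : 0 < S) (hν : 0 < ν) (hs : 0 < s) (hn : nw ≤ ν * w1)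
    (hE : 0 ≤ 516 / 1000 * s * (S * S * (ν * ν)) -
      (S + s * s) * (2 * (S * (47 / 500 * (ν * ν * S) - 57 / 100 * nw + 93 / 50 * (ν * (S * r2))))
        + (93 / 100 * (1 / 4 - S * S) + 27 / 250 * (1 / 2 - S)) * (ν * r2))) :
    47 / 500 * ν * S - 57 / 100 * w1 + 93 / 50 * (S * r2)
      + (93 / 100 * (1 / 4 - S ^ 2) + 27 / 250 * (1 / 2 - S)) * (r2 / (2 * S))
      ≤ 129 / 1000 * √S * ν := by
  have hq := Real.sqrt_pos.2 hS
  have hqq : √S * √S = S := Real.mul_self_sqrt hS.le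
  have h1 : 2 * s * S ≤ √S * (S + s * s) := by
    have h2 : 0 ≤ √S * (√S - s) ^ 2 := mul_nonneg hq.le (sq_nonneg _)
    have h3 : √S * (√S - s) ^ 2 = √S * (√S * √S + s * s) - 2 * s * (√S * √S) := by ring
    rw [h3, hqq] at h2
    linarith
  have hp : 0 < 2 * S * ν * (S + s * s) := by positivity
  refine le_of_mul_le_mul_right ?_ hp
  have h4 : r2 / (2 * S) * (2 * S) = r2 := by field_simp
  have h5 : (47 / 500 * ν * S - 57 / 100 * w1 + 93 / 50 * (S * r2)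
      + (93 / 100 * (1 / 4 - S ^ 2) + 27 / 250 * (1 / 2 - S)) * (r2 / (2 * S))) *
      (2 * S * ν * (S + s * s)) = (S + s * s) * (2 * (S * (47 / 500 * (ν * ν * S)
        - 57 / 100 * (ν * w1) + 93 / 50 * (ν * (S * r2))))
        + (93 / 100 * (1 / 4 - S * S) + 27 / 250 * (1 / 2 - S)) * (ν * (r2 / (2 * S) * (2 * S)))) := by
    ring
  rw [h5, h4]
  have h6 : 129 / 1000 * √S * ν * (2 * S * ν * (S + s * s)) =
      258 / 1000 * (S * ν * ν) * (√S * (S + s * s)) := by ring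
  rw [h6]
  have h7 := mul_le_mul_of_nonneg_left h1 (by positivity : 0 ≤ 258 / 1000 * (S * ν * ν))
  have h8 : 0 ≤ (S + s * s) * (2 * (S * (57 / 100 * (ν * w1 - nw)))) := by
    have : 0 ≤ ν * w1 - nw := by linarith
    positivity
  nlinarith

/-- `ν w'` -/
def enW1 : Pe := (.c 2 1 * (eV * eV) - (.c 1 1 - eV) * (.m * .m - eV)) * (.r * .r)
  - .c 2 1 * (eR2 * eR2)

/-- lower bound of `ν w'` -/
def enW1b : Pe := .c 2 1 * (eV * eV * eV) * (.r * .r) - .c 2 1 * (eR2 * eR2)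

/-- `Dn` times `2 S ν (S + s²)` -/
def eDn (nw : Pe) (n : ℤ) (d : ℕ) : Pe :=
  .c 516 1000 * .c n d * (eR1 * eR1 * (.m * .m)) -
    (eR1 + .c n d * .c n d) * (.c 2 1 * (eR1 * (.c 47 500 * (.m * .m * eR1) - .c 57 100 * nw
      + .c 93 50 * (.m * (eR1 * eR2))))
    + (.c 93 100 * (.c 1 4 - eR1 * eR1) + .c 27 250 * (.c 1 2 - eR1)) * (.m * eR2))

theorem nu_mm (x : ℝ) : H156.nu x = mm x := rfl

theorem br_r1 (x : ℝ) : H156.r1 x = r1 x := by
  rw [r1_eq]
  rfl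

theorem br_r2 (x : ℝ) : H156.r2 x = r2 x := by
  rw [r2_eq, SP448.r2_eq]
  unfold SP448.Qd
  have e1 : H156.r x = r x := rfl
  have e2 : H156.nu x = mm x := rfl
  have e3 : SP448.V x = vv x := rfl
  rw [e1, e2, e3]
  ring

theorem nu_w1 (x : ℝ) : mm x * SP448.w1 x
    = (2 * vv x ^ 2 - (1 - vv x) * (mm x ^ 2 - vv x)) * r x ^ 2 - 2 * r2 x ^ 2 := by
  have h := SP448.nu_mul_w1 x
  rw [br_r2] at h
  exact h

theorem dn_of {x s nw : ℝ} (hs : 0 < s) (hn : nw ≤ mm x * SP448.w1 x)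
    (hE : 0 ≤ 516 / 1000 * s * (r1 x * r1 x * (mm x * mm x)) -
      (r1 x + s * s) * (2 * (r1 x * (47 / 500 * (mm x * mm x * r1 x) - 57 / 100 * nw
        + 93 / 50 * (mm x * (r1 x * r2 x))))
        + (93 / 100 * (1 / 4 - r1 x * r1 x) + 27 / 250 * (1 / 2 - r1 x)) * (mm x * r2 x))) :
    SP.H807K.Dn x := by
  unfold SP.H807K.Dn
  rw [br_r1, br_r2, nu_mm]
  exact dn_core (r1_pos x) (mm_pos x) hs hn hE

theorem dn_A {x : ℝ} (h1 : -5 ≤ x) (h2 : x ≤ 0) : SP.H807K.Dn x := by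
  have h := cert2 (e := eDn enW1 3 10) envOK_nil 64 [(2, 24), (3, 38), (4, 35), (3, 6)]
    (by decide) (by decide +kernel) (x := x) (by norm_num; linarith) (by norm_num [tot]; linarith)
  simp only [eDn, enW1, ev_sub, ev_add, ev_mul, ev_c, ev_m, ev_r, ev_eR1, ev_eR2, ev_eV] at h
  push_cast at h
  refine dn_of (s := 3 / 10) (by norm_num) (nw := mm x * SP448.w1 x) le_rfl ?_
  rw [nu_w1]
  refine h.trans_eq ?_
  ring

theorem dn_B {x : ℝ} (h1 : 0 ≤ x) (h2 : x ≤ 35 / 8) : SP.H807K.Dn x := by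
  have h := cert2 (e := eDn enW1 645 1000) envOK_nil 384 [(4, 10), (3, 16), (2, 30), (1, 132)]
    (by decide) (by decide +kernel) (x := x) (by norm_num; linarith) (by norm_num [tot]; linarith)
  simp only [eDn, enW1, ev_sub, ev_add, ev_mul, ev_c, ev_m, ev_r, ev_eR1, ev_eR2, ev_eV] at h
  push_cast at h
  refine dn_of (s := 645 / 1000) (by norm_num) (nw := mm x * SP448.w1 x) le_rfl ?_
  rw [nu_w1]
  refine h.trans_eq ?_
  ring

end Vale.Agent.P254.SP151
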