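import Vale.Agent.P254.SP.H151.KtDn

/-! P254 line (SP_0): the one-variable fact `Dn` of the kernel `ktot`, all `x` (helper151). -/

set_option autoImplicit false

open MeasureTheory Set Filter Topology

namespace Vale.Agent.P254.SP151

open Vale.Agent.P254.H721 Vale.Agent.P254.H721.Cert

theorem vv_lt_sq (x : ℝ) : vv x < mm x ^ 2 := by
  have := qv_pos x
  linarith

theorem x_mul_mm (x : ℝ) : x * mm x < 1 := by
  have h1 := L_mul_mm x
  have h2 := vv_pos x
  have h3 := mm_eq x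
  have h4 := mm_pos x
  have h5 : L x = mm x + x := by linarith
  rw [h5] at h1
  nlinarith [sq_nonneg (mm x)]

theorem vv_mul_sq {x : ℝ} (hx : 0 < x) : vv x * x ^ 2 < 1 := by
  have h1 := vv_lt_sq x
  have h2 := x_mul_mm x
  have h3 := mm_pos x
  have h4 : 0 < x * mm x := mul_pos hx h3
  have h5 : (x * mm x) ^ 2 < 1 := by nlinarith
  have h6 : vv x * x ^ 2 < mm x ^ 2 * x ^ 2 := mul_lt_mul_of_pos_right h1 (by positivity)
  nlinarith

/-- `G = 2 V² - (ν² - V)` -/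
noncomputable def Gb (x : ℝ) : ℝ := 2 * vv x ^ 2 - (mm x ^ 2 - vv x)

theorem hasDerivAt_Gb (x : ℝ) : HasDerivAt Gb
    (4 * vv x * (-(L x * (mm x ^ 2 - vv x))) + 2 * mm x * vv x - L x * (mm x ^ 2 - vv x)) x := by
  have hv := hasDerivAt_vv x
  have hm := hasDerivAt_mm x
  have h := (((hv.pow 2).const_mul 2).sub ((hm.pow 2).sub hv))
  refine h.congr_deriv ?_
  simp only [Nat.cast_ofNat, Nat.reduceSub, pow_one]
  ring

theorem Gb_deriv_mul (x : ℝ) :
    mm x * (4 * vv x * (-(L x * (mm x ^ 2 - vv x))) + 2 * mm x * vv x - L x * (mm x ^ 2 - vv x))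
      = Gb x - vv x * (mm x ^ 2 - vv x) * (1 - 4 * vv x) := by
  have h1 := L_mul_mm x
  unfold Gb
  have e : mm x * (4 * vv x * (-(L x * (mm x ^ 2 - vv x))) + 2 * mm x * vv x
      - L x * (mm x ^ 2 - vv x)) = -(L x * mm x) * (mm x ^ 2 - vv x) * (1 + 4 * vv x)
      + 2 * mm x ^ 2 * vv x := by ring
  rw [e, h1]
  ring

/-- `b ≤ 2 V²` for `x ≥ 2` -/
theorem b_le {x : ℝ} (hx : 2 ≤ x) : mm x ^ 2 - vv x ≤ 2 * vv x ^ 2 := by
  by_contra hc
  push Not at hc
  have hG : Gb x < 0 := by unfold Gb; linarith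
  have hVq : ∀ y, 2 ≤ y → vv y ≤ 1 / 4 := fun y hy => by
    have h1 := vv_mul_sq (by linarith : 0 < y)
    have h2 := vv_pos y
    nlinarith
  have key : ∀ b, x ≤ b → Gb b ≤ Gb x := by
    intro b hb
    have h := image_le_of_deriv_right_lt_deriv_boundary
      (f := Gb) (f' := fun x => 4 * vv x * (-(L x * (mm x ^ 2 - vv x))) + 2 * mm x * vv x
        - L x * (mm x ^ 2 - vv x)) (a := x) (b := b)
      (fun y _ => (hasDerivAt_Gb y).continuousAt.continuousWithinAt)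
      (fun y _ => (hasDerivAt_Gb y).hasDerivWithinAt) (B := fun _ => Gb x) (B' := fun _ => 0)
      le_rfl (fun y => hasDerivAt_const y _) (fun y hy hy2 => by
        have h1 := Gb_deriv_mul y
        have h2 : vv y ≤ 1 / 4 := hVq y (hx.trans hy.1)
        have h3 := mm_pos y
        have h4 := vv_pos y
        have h5 := qv_pos y
        have h6 : 0 ≤ vv y * (mm y ^ 2 - vv y) * (1 - 4 * vv y) :=
          mul_nonneg (mul_pos h4 h5).le (by linarith)
        by_contra hn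
        push Not at hn
        have hy3 : Gb y = Gb x := hy2
        have h7 : 0 ≤ mm y * (4 * vv y * (-(L y * (mm y ^ 2 - vv y))) + 2 * mm y * vv y
            - L y * (mm y ^ 2 - vv y)) := mul_nonneg h3.le hn
        rw [h1, hy3] at h7
        linarith)
    exact h (right_mem_Icc.2 hb)
  -- `G ≥ -4 V³`
  have hlow : ∀ y, 2 ≤ y → -(4 * vv y ^ 3) ≤ Gb y := by
    intro y hy
    have h1 : 0 < 2 * vv y ^ 2 - (1 - vv y) * (mm y ^ 2 - vv y) := by
      have h2 := SP448.C_pos (-y)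
      rw [SP448.b_eq] at h2
      exact h2
    have h3 := hVq y hy
    have h4 := vv_pos y
    have h5 := qv_pos y
    have h6 : 0 < 4 * vv y ^ 3 * (1 - vv y) := by
      have : 0 < 1 - vv y := by linarith
      positivity
    unfold Gb
    have h7 : (mm y ^ 2 - vv y) * (1 - vv y) ≤ (2 * vv y ^ 2 + 4 * vv y ^ 3) * (1 - vv y) := by
      have h8 : (2 * vv y ^ 2 + 4 * vv y ^ 3) * (1 - vv y)
          = 2 * vv y ^ 2 + 2 * vv y ^ 3 * (1 - 2 * vv y) := by ring
      have h9 : 0 ≤ 2 * vv y ^ 3 * (1 - 2 * vv y) := by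
        have : 0 ≤ 1 - 2 * vv y := by linarith
        positivity
      rw [h8]
      linarith
    have h10 := le_of_mul_le_mul_right h7 (by linarith)
    linarith
  -- a large point
  set δ := -Gb x with hδ
  have hδ0 : 0 < δ := by linarith
  obtain ⟨b, hb⟩ : ∃ b : ℝ, b = x + 1 + 1 / δ := ⟨_, rfl⟩
  have hb1 : x ≤ b := by
    have : 0 < 1 / δ := by positivity
    linarith
  have hb2 : 2 ≤ b := by linarith
  have hb3 : 1 / δ < b := by linarith
  have h1 := key b hb1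
  have h2 := hlow b hb2
  have h3 := vv_mul_sq (by linarith : 0 < b)
  have h4 := vv_pos b
  have h5 := hVq b hb2
  have h6 : δ * b > 1 := by
    rw [div_lt_iff₀ hδ0] at hb3
    linarith
  -- `δ ≤ 4 V³ ≤ V² ≤ V / 4`, `V b² < 1`
  have h7 : δ ≤ 4 * vv b ^ 3 := by linarith
  have h8 : 4 * vv b ^ 3 ≤ vv b := by nlinarith [mul_pos h4 h4]
  have h9 : δ * b ^ 2 < 1 := by
    have : δ * b ^ 2 ≤ vv b * b ^ 2 := mul_le_mul_of_nonneg_right (h7.trans h8) (sq_nonneg _)
    linarith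
  nlinarith

theorem dn_C {x : ℝ} (h1 : 35 / 8 ≤ x) (h2 : x ≤ 9) : SP.H807K.Dn x := by
  have h := cert2 (e := eDn enW1b 66 100) envOK_nil 664 [(1, 26), (2, 135)]
    (by decide) (by decide +kernel) (x := x) (by norm_num; linarith) (by norm_num [tot]; linarith)
  simp only [eDn, enW1b, ev_sub, ev_add, ev_mul, ev_c, ev_m, ev_r, ev_eR1, ev_eR2, ev_eV] at h
  push_cast at h
  refine dn_of (s := 66 / 100) (by norm_num)
    (nw := 2 * (vv x * vv x * vv x) * (r x * r x) - 2 * (r2 x * r2 x)) ?_ ?_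
  · rw [nu_w1]
    have hb := b_le (by linarith : 2 ≤ x)
    have hv := vv_lt_one x
    have h3 : (1 - vv x) * (mm x ^ 2 - vv x) ≤ (1 - vv x) * (2 * vv x ^ 2) :=
      mul_le_mul_of_nonneg_left hb (by linarith)
    have h4 := mul_le_mul_of_nonneg_right h3 (sq_nonneg (r x))
    nlinarith
  · refine h.trans_eq ?_
    ring

/-! ### tails -/

theorem nw1_ge (x : ℝ) : -(2 * r2 x ^ 2) ≤ mm x * SP448.w1 x := by
  rw [nu_w1]
  have h2 := SP448.C_pos (-x)
  rw [SP448.b_eq] at h2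
  have h3 : 0 < 2 * vv x ^ 2 - (1 - vv x) * (mm x ^ 2 - vv x) := h2
  nlinarith [mul_nonneg h3.le (sq_nonneg (r x))]

theorem dn_left {x : ℝ} (hx : x ≤ -5) : SP.H807K.Dn x := by
  unfold SP.H807K.Dn
  rw [br_r1, br_r2, nu_mm]
  have hS := r1_pos x
  have hν := mm_pos x
  have hν5 : 5 ≤ mm x := by
    have := @mm_ge x
    linarith
  have hr2 := r2_pos x
  have h1 := SP.H222.r2_mul_lt x
  have h2 := SP.H222.T1 x
  have h3 := SP.H222.r1_mul_lt x
  have hV := vv_pos x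
  have hV1 := vv_lt_one x
  have hV9 : 99 / 100 ≤ vv x := by
    have h := cert2 (e := eV - .c 99 100) envOK_nil 64 [(1, 1)] (by decide) (by decide +kernel)
      (x := -5) (by norm_num) (by norm_num [tot])
    simp only [ev_sub, ev_c, ev_eV] at h
    push_cast at h
    exact (by linarith : 99 / 100 ≤ vv (-5)).trans (vv_anti.antitone hx)
  have hw := nw1_ge x
  have hS26 := r1_left hx
  -- `√S ν ≥ 93/100`
  have hS2 : 99 / 100 ≤ r1 x * (mm x ^ 2 + 3) := by nlinarith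
  have hS3 : (93 / 100 : ℝ) ^ 2 ≤ r1 x * mm x ^ 2 := by nlinarith
  have hq : 93 / 100 ≤ √(r1 x) * mm x := by
    have h4 : √(r1 x) * mm x = √(r1 x * mm x ^ 2) := by
      rw [Real.sqrt_mul hS.le, Real.sqrt_sq hν.le]
    rw [h4]
    exact Real.le_sqrt_of_sq_le hS3
  have hSν : r1 x * mm x ^ 2 ≤ 1 := by nlinarith
  have hSν1 : mm x * r1 x ≤ 1 / 5 := by nlinarith
  -- `u = r2 / (2 S) < 1 / ν ≤ 1/5`
  have hu : r2 x / (2 * r1 x) ≤ 1 / 5 := by
    rw [div_le_iff₀ (by positivity)]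
    nlinarith
  have hu0 : 0 ≤ r2 x / (2 * r1 x) := by positivity
  have hr2b : r2 x ≤ 1 / 65 := by nlinarith
  have hww : -(1 / 1000) ≤ SP448.w1 x := by
    have h5 : 2 * r2 x ^ 2 ≤ 1 / 1000 * 5 := by nlinarith
    by_contra hc
    push Not at hc
    nlinarith
  have hP : 93 / 100 * (1 / 4 - r1 x ^ 2) + 27 / 250 * (1 / 2 - r1 x) ≤ 2865 / 10000 := by nlinarith
  have hP0 : 0 ≤ 93 / 100 * (1 / 4 - r1 x ^ 2) + 27 / 250 * (1 / 2 - r1 x) := by
    have := r1_lt x
    nlinarith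
  have hPu : (93 / 100 * (1 / 4 - r1 x ^ 2) + 27 / 250 * (1 / 2 - r1 x)) * (r2 x / (2 * r1 x))
      ≤ 2865 / 10000 * (1 / 5) := mul_le_mul hP hu hu0 (by norm_num)
  have hSr : r1 x * r2 x ≤ 1 / 26 * (1 / 65) :=
    mul_le_mul (by linarith) hr2b hr2.le (by norm_num)
  have e1 : 129 / 1000 * √(r1 x) * mm x = 129 / 1000 * (√(r1 x) * mm x) := by ring
  have e2 : 47 / 500 * mm x * r1 x = 47 / 500 * (mm x * r1 x) := by ring
  rw [e1, e2]
  linarith

theorem dn_right {x : ℝ} (hx : 9 ≤ x) : SP.H807K.Dn x := by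
  unfold SP.H807K.Dn
  rw [br_r1, br_r2, nu_mm]
  have hS := r1_pos x
  have hS2 := r1_lt x
  have hS9 := r1_right hx
  have hν := mm_pos x
  have hr2 := r2_pos x
  have h1 := SP.H222.T2 x
  have hw := nw1_ge x
  have hq : 69 / 100 ≤ √(r1 x) := by
    apply Real.le_sqrt_of_sq_le
    linarith
  -- `δ = 1 - 2 S ≤ 42/1000`
  obtain ⟨δ, hδ⟩ : ∃ δ, δ = 1 - 2 * r1 x := ⟨_, rfl⟩
  have hδ0 : 0 < δ := by linarith
  have hδ1 : δ ≤ 42 / 1000 := by linarith
  have hr : r2 x ≤ 42 / 1000 * mm x := by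
    have : mm x * (1 - 2 * r1 x) ≤ mm x * (42 / 1000) :=
      mul_le_mul_of_nonneg_left (by linarith) hν.le
    linarith
  have hw2 : -(2 * (42 / 1000) ^ 2 * mm x) ≤ SP448.w1 x := by
    have h5 : r2 x ^ 2 ≤ (42 / 1000 * mm x) ^ 2 := pow_le_pow_left₀ hr2.le hr 2
    by_contra hc
    push Not at hc
    have h6 := mul_lt_mul_of_pos_left hc hν
    nlinarith
  have hu : r2 x / (2 * r1 x) ≤ 44 / 1000 * mm x := by
    rw [div_le_iff₀ (by positivity)]
    nlinarith
  have hu0 : 0 ≤ r2 x / (2 * r1 x) := by positivity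
  have hP : 93 / 100 * (1 / 4 - r1 x ^ 2) + 27 / 250 * (1 / 2 - r1 x) ≤ 22 / 1000 := by nlinarith
  have hPu : (93 / 100 * (1 / 4 - r1 x ^ 2) + 27 / 250 * (1 / 2 - r1 x)) * (r2 x / (2 * r1 x))
      ≤ 22 / 1000 * (44 / 1000 * mm x) := mul_le_mul hP hu hu0 (by norm_num)
  have hSr : r1 x * r2 x ≤ 1 / 2 * (42 / 1000 * mm x) :=
    mul_le_mul hS2.le hr hr2.le (by norm_num)
  have hR : 129 / 1000 * (69 / 100) * mm x ≤ 129 / 1000 * √(r1 x) * mm x := by
    apply mul_le_mul_of_nonneg_right _ hν.le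
    linarith
  have hL : 47 / 500 * mm x * r1 x ≤ 47 / 500 * mm x * (1 / 2) :=
    mul_le_mul_of_nonneg_left hS2.le (by positivity)
  nlinarith

/-- **`Dn` for all `x`** -/
theorem dn (x : ℝ) : SP.H807K.Dn x := by
  rcases le_total x (-5) with h | h
  · exact dn_left h
  rcases le_total x 0 with h' | h'
  · exact dn_A h h'
  rcases le_total x (35 / 8) with h'' | h''
  · exact dn_B h' h''
  rcases le_total x 9 with h3 | h3
  · exact dn_C h'' h3
  · exact dn_right h3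

end Vale.Agent.P254.SP151
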