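import Vale.Agent.P254.SP.H151.Fam2
import Vale.Agent.P254.SP.H979.Range

/-! P254 line (SP_0): the columns `q ≤ 4` (helper979) in the form of the glue (helper151). -/

set_option autoImplicit false

open MeasureTheory Matrix

namespace Vale.Agent.P254.SP151

open Vale.Agent.P227.M Vale.Agent.P254.S Vale.Agent.P254.SP

theorem lo4 (P : F1) {q : ℝ} (h0 : 0 ≤ q) (h4 : q ≤ 4) : PM1 P (43 / 100) 5 q := by
  refine SP979.small P (wfm P (43 / 100)) (bfm 5) 0 1 (by decide) (fun x y => rfl) ?_ le_rfl le_rfl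
    le_rfl h0 h4
  intro i
  fin_cases i
  · show (0 : ℝ) ≤ 30; norm_num
  · show (0 : ℝ) ≤ 4; norm_num
  · show (0 : ℝ) ≤ 5; norm_num

/-- **`StmtStab P` from the ranges `q ≥ 4` and the two kernels** -/
theorem stab_final (P : F1)
    (h2 : ∀ x y, (dd P.r' P.r'' x y - P.r'' x) ^ 2 ≤ 3 / 400 * (wσ P x y - 1))
    (h4 : ∀ x y, ktot P (43 / 100) (1 / 2) x y ^ 2 ≤ 1 / 20 * P.r' x * (wσ P x y - 1))
    (h47 : ∀ q : ℝ, 4 ≤ q → q ≤ 7 → PWm1 P q) (h712 : ∀ q : ℝ, 7 ≤ q → q ≤ 12 → PWm1 P q)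
    (h1240 : ∀ q : ℝ, 12 ≤ q → q ≤ 40 → PWm0 P q) (h40 : ∀ q : ℝ, 40 ≤ q → PWm0 P q) :
    E72.StmtStab P := by
  refine stab_glue2 P (μ := 43 / 100) (b := 5) (Ct := 1 / 20) (by norm_num) (by norm_num) h2 h4 ?_
  intro q hq
  rcases le_total q 4 with a | a
  · exact Or.inl (lo4 P hq a)
  rcases le_total q 7 with b | b
  · exact Or.inl (h47 q a b)
  rcases le_total q 12 with c | c
  · exact Or.inl (h712 q b c)
  rcases le_total q 40 with d | d
  · exact Or.inr (h1240 q c d)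
  · exact Or.inr (h40 q d)

end Vale.Agent.P254.SP151
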