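import Vale.Agent.P254.SP.H151.CovQ
import Vale.Agent.P254.SP.H332.Ent2
import Vale.Agent.P254.SP.H130.MAfin
import Vale.Agent.P254.SP.H620.Stmt
import Vale.Agent.P254.SP.H127.Meas
import Vale.Agent.P254.SP.H427.Bes
import Vale.Agent.P254.SP.H649.Gap

/-! P254 line (SP_0), MAIN, certificate-independent half (helper151): for every orthonormal basis
`e_p` and every `c_p > 0`
`2 h - 2 n - log det Cov ≥ E ∑ (wσ - 1) uu² + ∑_p (E|DF e_p|² - E|F e_p|² + Υ_p - log c_p - Var_p/c_p)`. -/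

set_option autoImplicit false

open MeasureTheory Matrix

namespace Vale.Agent.P254.SP151

open Vale.Agent.P227.M Vale.Agent.P254.S Vale.Agent.P254.SP Vale.Agent.P254.SP649
open Vale.Agent.P254.S130 (gQ MBM BM MBL BL gQ_prob)

variable {n : ℕ} {P : F1} {φ V : E n → ℝ} {a b M κ : ℝ}
  {U : E n → Matrix (Fin n) (Fin n) ℝ} {s : E n → Fin n → ℝ}

/-- sums and expectations -/
theorem ex_sum {ι : Type*} (t : Finset ι) {f : ι → E n → ℝ}
    (hf : ∀ i ∈ t, Integrable (f i) (gQ n)) :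
    ∑ i ∈ t, Ex Q (f i) = Ex Q (fun z => ∑ i ∈ t, f i z) := by
  rw [S130.Ex_eq, integral_finsetSum t hf]
  exact Finset.sum_congr rfl fun i _ => S130.Ex_eq _

theorem ex_sum3 {f : Fin n → Fin n → Fin n → E n → ℝ} (hf : ∀ k i j, Integrable (f k i j) (gQ n)) :
    Ex Q (fun z => ∑ k, ∑ i, ∑ j, f k i j z) = ∑ k, ∑ i, ∑ j, Ex Q (f k i j) := by
  rw [← ex_sum _ fun k _ => integrable_finsetSum _ fun i _ => integrable_finsetSum _ fun j _ => hf k i j]
  refine Finset.sum_congr rfl fun k _ => ?_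
  rw [← ex_sum _ fun i _ => integrable_finsetSum _ fun j _ => hf k i j]
  refine Finset.sum_congr rfl fun i _ => ?_
  rw [← ex_sum _ fun j _ => hf k i j]

theorem ex_sum2 {f : Fin n → Fin n → E n → ℝ} (hf : ∀ i j, Integrable (f i j) (gQ n)) :
    Ex Q (fun z => ∑ i, ∑ j, f i j z) = ∑ i, ∑ j, Ex Q (f i j) := by
  rw [← ex_sum _ fun i _ => integrable_finsetSum _ fun j _ => hf i j]
  refine Finset.sum_congr rfl fun i _ => ?_
  rw [← ex_sum _ fun j _ => hf i j]

theorem ex_congr {f g : E n → ℝ} (h : ∀ᵐ z ∂(gQ n), f z = g z) : Ex Q f = Ex Q g := by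
  rw [S130.Ex_eq, S130.Ex_eq]
  exact integral_congr_ae h

theorem ex_sub {f g : E n → ℝ} (hf : Integrable f (gQ n)) (hg : Integrable g (gQ n)) :
    Ex Q (fun z => f z - g z) = Ex Q f - Ex Q g := by
  rw [S130.Ex_eq, S130.Ex_eq, S130.Ex_eq]
  exact integral_sub hf hg

theorem ex_add {f g : E n → ℝ} (hf : Integrable f (gQ n)) (hg : Integrable g (gQ n)) :
    Ex Q (fun z => f z + g z) = Ex Q f + Ex Q g := by
  rw [S130.Ex_eq, S130.Ex_eq, S130.Ex_eq]
  exact integral_add hf hg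

theorem ex_const_mul (c : ℝ) (f : E n → ℝ) : Ex Q (fun z => c * f z) = c * Ex Q f := by
  rw [S130.Ex_eq, S130.Ex_eq]
  exact integral_const_mul c f

theorem ex_const (c : ℝ) : Ex Q (fun _ : E n => c) = c := by
  have := gQ_prob (n := n)
  rw [S130.Ex_eq]
  simp

theorem BM.int {f : E n → ℝ} (hf : BM (gQ n) f) : Integrable f (gQ n) := by
  have := gQ_prob (n := n)
  exact hf.integrable

theorem BM.sq {f : E n → ℝ} (hf : BM (gQ n) f) : BM (gQ n) fun z => f z ^ 2 := by
  simp only [pow_two]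
  exact S130.BM.mul hf hf

theorem bm_mulVec {B : E n → Matrix (Fin n) (Fin n) ℝ} (hB : MBM (gQ n) B) (e : Fin n → ℝ)
    (i : Fin n) : BM (gQ n) fun z => ((B z).mulVec e) i := by
  simp only [mulVec, dotProduct]
  exact S130.BM.sum _ fun j _ => S130.BM.mul (hB i j) (S130.BM.const _)

/-- the quadratic form of `f(G)` in the frame -/
theorem quad_frame (U : E n → Matrix (Fin n) (Fin n) ℝ) (s : E n → Fin n → ℝ) (f : ℝ → ℝ)
    (e : Fin n → ℝ) (z : E n) :
    ∑ i, f (s z i) * xx U e z i ^ 2 = ∑ i, e i * ((fc U s f z).mulVec e) i := by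
  have h : e ⬝ᵥ (fc U s f z *ᵥ e) =
      ((U z)ᵀ *ᵥ e) ⬝ᵥ (diagonal (fun k => f (s z k)) *ᵥ ((U z)ᵀ *ᵥ e)) := by
    unfold fc
    rw [← mulVec_mulVec, ← mulVec_mulVec, dotProduct_mulVec, ← mulVec_transpose]
  have h1 : ∑ i, e i * ((fc U s f z).mulVec e) i = e ⬝ᵥ (fc U s f z *ᵥ e) := rfl
  rw [h1, h]
  simp only [dotProduct, mulVec_diagonal]
  refine Finset.sum_congr rfl fun i _ => ?_
  unfold xx
  ring

theorem bm_quad (h : BP φ V a b M κ) (hF : Fr P φ U s) {f : ℝ → ℝ} (hf : Continuous f)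
    (e : Fin n → ℝ) : BM (gQ n) fun z => ∑ i, f (s z i) * xx U e z i ^ 2 := by
  simp only [quad_frame]
  exact S130.BM.sum _ fun i _ => S130.BM.mul (S130.BM.const _) (bm_mulVec (SP620.bm_fc h hF hf) e i)

/-- `∑_p E⟨e_p, f(G) e_p⟩ = E tr f(G)` -/
theorem sum_quad (h : BP φ V a b M κ) (hF : Fr P φ U s) {f : ℝ → ℝ} (hf : Continuous f)
    {e : Fin n → Fin n → ℝ} (he : ∀ p p', ∑ i, e p i * e p' i = if p = p' then 1 else 0) :
    ∑ p, Ex Q (fun z => ∑ i, f (s z i) * xx U (e p) z i ^ 2) = Ex Q (fun z => ∑ i, f (s z i)) := by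
  rw [ex_sum _ fun p _ => BM.int (bm_quad h hF hf (e p))]
  refine ex_congr (ae_of_all _ fun z => ?_)
  exact SP427.sum_frame_weight he (hF.orth z) fun i => f (s z i)

theorem sum_Ups (h : BP φ V a b M κ) (hF : Fr P φ U s)
    {e : Fin n → Fin n → ℝ} (he : ∀ p p', ∑ i, e p i * e p' i = if p = p' then 1 else 0) :
    ∑ p, Ups P U s (e p) = 2 * Ex Q (fun z => ∑ i, P.t (s z i)) - Ex Q (fun z => ∑ i, P.r (s z i) ^ 2)
      - Ex Q (fun z => ∑ k, ∑ i, ∑ j, (dd P.r P.r' (s z i) (s z j) * uu U s k z i j) ^ 2) := by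
  have ct : Continuous P.t := SP332.t_cont P
  have cr : Continuous P.r := continuous_iff_continuousAt.2 fun x => (P.hr x).continuousAt
  have cr' : Continuous P.r' := continuous_iff_continuousAt.2 fun x => (P.hr' x).continuousAt
  have cr2 : Continuous fun x => P.r x ^ 2 := cr.pow 2
  unfold Ups
  rw [Finset.sum_sub_distrib, Finset.sum_sub_distrib, ← Finset.mul_sum, sum_quad h hF ct he]
  have h2 := sum_quad h hF cr2 he
  rw [h2]
  congr 1
  have hb : ∀ p, BM (gQ n) fun z => ∑ a, ∑ i, ((pdM a (fc U s P.r) z).mulVec (e p) i) ^ 2 :=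
    fun p => S130.BM.sum _ fun a _ => S130.BM.sum _ fun i _ =>
      BM.sq (bm_mulVec (SP620.mbm_pd_fc h hF P.hr cr' a) (e p) i)
  rw [ex_sum _ fun p _ => BM.int (hb p)]
  refine ex_congr ?_
  filter_upwards [SP620.ae_good h hF] with z hz
  rw [Finset.sum_comm]
  refine Finset.sum_congr rfl fun k _ => ?_
  rw [SP427.sum_sq_fam he, ← SP620.fr_pd_fc h hF P.hr cr' hz k]
  rfl

theorem mbm_Fa (h : BP φ V a b M κ) (hF : Fr P φ U s) (k : Fin n) : MBM (gQ n) (Fa U s k) := by
  intro i j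
  have h1 := S130.BM.add (SP620.mbm_pd_GG (μ := gQ n) h hF k i j) (S130.BM.const (-AA U s k i j))
  unfold Fa
  simpa only [Matrix.sub_apply, sub_eq_add_neg] using h1

/-- `∑_p E|DF e_p|² = E|DG|² - ∑|A_k|²` -/
theorem sum_dF (h : BP φ V a b M κ) (hF : Fr P φ U s)
    {e : Fin n → Fin n → ℝ} (he : ∀ p p', ∑ i, e p i * e p' i = if p = p' then 1 else 0) :
    ∑ p, Ex Q (fun z => ∑ k, ∑ i, col U (Fa U s k) (e p) z i ^ 2) =
      Ex Q (fun z => ∑ k, ∑ i, ∑ j, uu U s k z i j ^ 2) - ∑ k, ∑ i, ∑ j, AA U s k i j ^ 2 := by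
  have hb : ∀ p, BM (gQ n) fun z => ∑ k, ∑ i, ((Fa U s k z).mulVec (e p)) i ^ 2 :=
    fun p => S130.BM.sum _ fun a _ => S130.BM.sum _ fun i _ => BM.sq (bm_mulVec (mbm_Fa h hF a) (e p) i)
  have e1 : ∀ p, (fun z => ∑ k, ∑ i, col U (Fa U s k) (e p) z i ^ 2) =
      fun z => ∑ k, ∑ i, ((Fa U s k z).mulVec (e p)) i ^ 2 := fun p => by
    funext z
    exact Finset.sum_congr rfl fun k _ => colF_sq hF (e p) k z
  simp only [e1]
  rw [ex_sum _ fun p _ => BM.int (hb p)]
  have e2 : (fun z => ∑ p, ∑ k, ∑ i, ((Fa U s k z).mulVec (e p)) i ^ 2) =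
      fun z => ∑ k, ∑ i, ∑ j, (pdM k (GG U s) z i j - AA U s k i j) ^ 2 := by
    funext z
    rw [Finset.sum_comm]
    refine Finset.sum_congr rfl fun k _ => ?_
    rw [SP427.sum_sq_fam he]
    rfl
  rw [e2]
  have hbm : ∀ k i j, BM (gQ n) fun z => pdM k (GG U s) z i j := fun k i j =>
    SP620.mbm_pd_GG (μ := gQ n) h hF k i j
  have e3 : ∀ k i j, Ex Q (fun z => (pdM k (GG U s) z i j - AA U s k i j) ^ 2) =
      Ex Q (fun z => pdM k (GG U s) z i j ^ 2) - AA U s k i j ^ 2 := by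
    intro k i j
    have e4 : (fun z => (pdM k (GG U s) z i j - AA U s k i j) ^ 2) = fun z =>
        (pdM k (GG U s) z i j ^ 2 - 2 * AA U s k i j * pdM k (GG U s) z i j) + AA U s k i j ^ 2 := by
      funext z; ring
    have i1 := BM.int (BM.sq (hbm k i j))
    have i2 : Integrable (fun z => 2 * AA U s k i j * pdM k (GG U s) z i j) (gQ n) :=
      (BM.int (hbm k i j)).const_mul _
    have ip := gQ_prob (n := n)
    have i3 : Integrable (fun z => pdM k (GG U s) z i j ^ 2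
        - 2 * AA U s k i j * pdM k (GG U s) z i j) (gQ n) := i1.sub i2
    rw [e4, ex_add i3 (integrable_const _), ex_sub i1 i2, ex_const_mul, ex_const]
    have e5 : Ex Q (fun z => pdM k (GG U s) z i j) = AA U s k i j := rfl
    rw [e5]
    ring
  have hb2 : ∀ k i j, Integrable (fun z => (pdM k (GG U s) z i j - AA U s k i j) ^ 2) (gQ n) :=
    fun k i j => by
      have := BM.int (BM.sq (mbm_Fa h hF k i j))
      exact this
  have hb3 : ∀ k i j, Integrable (fun z => pdM k (GG U s) z i j ^ 2) (gQ n) :=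
    fun k i j => BM.int (BM.sq (hbm k i j))
  rw [ex_sum3 hb2]
  simp only [e3, Finset.sum_sub_distrib]
  rw [← ex_sum3 hb3]
  congr 1
  refine ex_congr (ae_of_all _ fun z => ?_)
  refine Finset.sum_congr rfl fun k _ => ?_
  exact SP620.fr_pd_GG hF z k

theorem lg_GG (h : BP φ V a b M κ) (hF : Fr P φ U s) (i j : Fin n) :
    LG (fun z => GG U s z i j) := by
  obtain ⟨K, hK⟩ := (SP620.mblG h hF i j).lipschitz
  exact LG.of_lipschitz hK

theorem int_zz (k l : Fin n) : Ex Q (fun z : E n => z k * z l) = if l = k then 1 else 0 := by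
  rw [S130.Ex_eq, (LG.coord l).ibp k, ← S130.Ex_eq]
  have e : pd k (fun x : E n => x l) = fun _ => if l = k then (1 : ℝ) else 0 :=
    funext fun x => pd_coord l k x
  rw [e, ex_const]

/-- `E z_k G_ij = A_k,ij` -/
theorem int_zG (h : BP φ V a b M κ) (hF : Fr P φ U s) (k i j : Fin n) :
    Ex Q (fun z => z k * GG U s z i j) = AA U s k i j := by
  rw [S130.Ex_eq, (lg_GG h hF i j).ibp k, ← S130.Ex_eq]
  rfl

theorem lg_lin (A : Fin n → ℝ) : LG (fun z : E n => ∑ k, z k * A k) :=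
  LG.sum _ fun k _ => (LG.coord k).mul (LG.const _)

theorem lg_FF (h : BP φ V a b M κ) (hF : Fr P φ U s) (i j : Fin n) :
    LG (fun z => FF U s z i j) := by
  have e : (fun z => FF U s z i j) = fun z => GG U s z i j - ∑ k, z k * AA U s k i j := by
    funext z
    unfold FF
    simp only [Matrix.sub_apply, Matrix.sum_apply, Matrix.smul_apply, smul_eq_mul]
  rw [e]
  exact (lg_GG h hF i j).sub (lg_lin _)

theorem FF_apply (z : E n) (i j : Fin n) :
    FF U s z i j = GG U s z i j - ∑ k, z k * AA U s k i j := by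
  unfold FF
  simp only [Matrix.sub_apply, Matrix.sum_apply, Matrix.smul_apply, smul_eq_mul]

/-- `E F_ij² = E G_ij² - ∑ A_k,ij²` -/
theorem ex_FF (h : BP φ V a b M κ) (hF : Fr P φ U s) (i j : Fin n) :
    Ex Q (fun z => FF U s z i j ^ 2) = Ex Q (fun z => GG U s z i j ^ 2) - ∑ k, AA U s k i j ^ 2 := by
  have hG := lg_GG h hF i j
  have hL := lg_lin (n := n) (fun k => AA U s k i j)
  have i1 : Integrable (fun z => GG U s z i j ^ 2) (gQ n) := (hG.pow 2).integrable
  have i2 : Integrable (fun z : E n => (∑ k, z k * AA U s k i j) ^ 2) (gQ n) :=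
    (hL.pow 2).integrable
  have i3 : Integrable (fun z => GG U s z i j * ∑ k, z k * AA U s k i j) (gQ n) :=
    (hG.mul hL).integrable
  have e1 : (fun z => FF U s z i j ^ 2) = fun z => (GG U s z i j ^ 2
      - 2 * (GG U s z i j * ∑ k, z k * AA U s k i j)) + (∑ k, z k * AA U s k i j) ^ 2 := by
    funext z
    rw [FF_apply]
    ring
  have i4 : Integrable (fun z => GG U s z i j ^ 2
      - 2 * (GG U s z i j * ∑ k, z k * AA U s k i j)) (gQ n) := i1.sub (i3.const_mul 2)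
  rw [e1, ex_add i4 i2, ex_sub i1 (i3.const_mul 2), ex_const_mul]
  have e2 : Ex Q (fun z => GG U s z i j * ∑ k, z k * AA U s k i j) = ∑ k, AA U s k i j ^ 2 := by
    have e3 : (fun z => GG U s z i j * ∑ k, z k * AA U s k i j) =
        fun z => ∑ k, AA U s k i j * (z k * GG U s z i j) := by
      funext z
      rw [Finset.mul_sum]
      exact Finset.sum_congr rfl fun k _ => by ring
    rw [e3, ← ex_sum _ fun k _ => (((LG.coord k).mul hG).integrable).const_mul _]
    refine Finset.sum_congr rfl fun k _ => ?_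
    rw [ex_const_mul, int_zG h hF]
    ring
  have e4 : Ex Q (fun z : E n => (∑ k, z k * AA U s k i j) ^ 2) = ∑ k, AA U s k i j ^ 2 := by
    have e5 : (fun z : E n => (∑ k, z k * AA U s k i j) ^ 2) =
        fun z => ∑ k, ∑ l, AA U s k i j * AA U s l i j * (z k * z l) := by
      funext z
      rw [sq, Finset.sum_mul]
      refine Finset.sum_congr rfl fun k _ => ?_
      rw [Finset.mul_sum]
      exact Finset.sum_congr rfl fun l _ => by ring
    have i5 : ∀ k l, Integrable (fun z : E n => AA U s k i j * AA U s l i j * (z k * z l)) (gQ n) :=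
      fun k l => (((LG.coord k).mul (LG.coord l)).integrable).const_mul _
    rw [e5, ex_sum2 i5]
    refine Finset.sum_congr rfl fun k _ => ?_
    simp only [ex_const_mul, int_zz, mul_ite, mul_one, mul_zero, Finset.sum_ite_eq',
      Finset.mem_univ, if_true]
    ring
  rw [e2, e4]
  ring

/-- `∑_p E|F e_p|² = E|G|² - ∑|A_k|²` -/
theorem sum_nF (h : BP φ V a b M κ) (hF : Fr P φ U s)
    {e : Fin n → Fin n → ℝ} (he : ∀ p p', ∑ i, e p i * e p' i = if p = p' then 1 else 0) :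
    ∑ p, Ex Q (fun z => ∑ i, col U (FF U s) (e p) z i ^ 2) =
      Ex Q (fun z => ∑ i, s z i ^ 2) - ∑ k, ∑ i, ∑ j, AA U s k i j ^ 2 := by
  have hl : ∀ p i, LG fun z => ((FF U s z).mulVec (e p)) i := fun p i => by
    simp only [mulVec, dotProduct]
    exact LG.sum _ fun j _ => (lg_FF h hF i j).mul (LG.const _)
  have e1 : ∀ p, (fun z => ∑ i, col U (FF U s) (e p) z i ^ 2) =
      fun z => ∑ i, ((FF U s z).mulVec (e p)) i ^ 2 := fun p => by
    funext z
    exact col_sq hF (e p) z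
  simp only [e1]
  rw [ex_sum _ fun p _ => (LG.sum _ fun i _ => (hl p i).pow 2).integrable]
  have e2 : (fun z => ∑ p, ∑ i, ((FF U s z).mulVec (e p)) i ^ 2) =
      fun z => ∑ i, ∑ j, FF U s z i j ^ 2 := by
    funext z
    exact SP427.sum_sq_fam he _
  rw [e2, ex_sum2 fun i j => ((lg_FF h hF i j).pow 2).integrable]
  simp only [ex_FF h hF, Finset.sum_sub_distrib]
  rw [← ex_sum2 fun i j => ((lg_GG h hF i j).pow 2).integrable]
  have e3 : ∀ z, ∑ i, ∑ j, GG U s z i j ^ 2 = ∑ i, s z i ^ 2 := by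
    intro z
    rw [← SP427.frame_hs (hF.orth z) (GG U s z)]
    have e4 : (U z)ᵀ * GG U s z * U z = diagonal (s z) := by
      unfold GG fc
      calc (U z)ᵀ * (U z * diagonal (fun k => s z k) * (U z)ᵀ) * U z
          = ((U z)ᵀ * U z) * diagonal (fun k => s z k) * ((U z)ᵀ * U z) := by
            simp only [Matrix.mul_assoc]
        _ = _ := by rw [SP620.Fr_orth hF z, Matrix.one_mul, Matrix.mul_one]
    rw [e4]
    refine Finset.sum_congr rfl fun i _ => ?_
    rw [Finset.sum_eq_single i]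
    · rw [diagonal_apply_eq]
    · intro j _ hj
      rw [diagonal_apply_ne _ (Ne.symm hj)]
      ring
    · intro hi
      exact absurd (Finset.mem_univ i) hi
  simp only [e3]
  congr 1
  have e5 : ∀ i, ∑ j, ∑ k, AA U s k i j ^ 2 = ∑ k, ∑ j, AA U s k i j ^ 2 := fun i =>
    Finset.sum_comm
  rw [Finset.sum_congr rfl fun i _ => e5 i, Finset.sum_comm]

theorem bm_uu2 (h : BP φ V a b M κ) (hF : Fr P φ U s) {w : ℝ → ℝ → ℝ}
    (hw : Continuous fun p : ℝ × ℝ => w p.1 p.2) :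
    BM (gQ n) fun z => ∑ k, ∑ i, ∑ j, w (s z i) (s z j) * uu U s k z i j ^ 2 := by
  refine S130.BM.sum _ fun k _ => ?_
  have := SP127.bm_uu h hF hw k k
  simpa only [← sq] using this

/-- **MAIN, first half** -/
theorem mainA {c C : ℝ} (hV : Reg V c C) (h : BP φ V a b M κ) (hF : Fr P φ U s)
    {e : Fin n → Fin n → ℝ} (he : ∀ p p', ∑ i, e p i * e p' i = if p = p' then 1 else 0)
    {γ : Fin n → ℝ} (hγ : ∀ p, 0 < γ p) :
    2 * (n : ℝ) + Real.log (covV V).det
      + Ex Q (fun z => ∑ k, ∑ i, ∑ j, (wσ P (s z i) (s z j) - 1) * uu U s k z i j ^ 2)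
      + ∑ p, (Ex Q (fun z => ∑ k, ∑ i, col U (Fa U s k) (e p) z i ^ 2)
          - Ex Q (fun z => ∑ i, col U (FF U s) (e p) z i ^ 2) + Ups P U s (e p)
          - Real.log (γ p)
          - (Ex Q (fun z => fe φ (e p) z ^ 2) - (Ex Q (fe φ (e p))) ^ 2) / γ p)
      ≤ 2 * entV V := by
  obtain ⟨hpd, hq⟩ := stmtCovQ n φ V c C a b M κ hV h
  have h1 := stmtHad n (covV V) hpd e he γ hγ
  simp only [hq] at h1
  have h2 := SP332.stmtEnt2 P n φ V a b M κ h U s hF
  have h3 := SP130.stmtMA P n φ V c C a b M κ hV h U s hF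
  have hwc := SP127.wσ_continuous P
  have i1 := BM.int (bm_uu2 h hF (w := fun x y => wσ P x y) hwc)
  have i2 := BM.int (bm_uu2 h hF (w := fun _ _ => 1) continuous_const)
  have e1 : (fun z => ∑ k, ∑ i, ∑ j, (wσ P (s z i) (s z j) - 1) * uu U s k z i j ^ 2) =
      fun z => (∑ k, ∑ i, ∑ j, wσ P (s z i) (s z j) * uu U s k z i j ^ 2)
        - ∑ k, ∑ i, ∑ j, (1 : ℝ) * uu U s k z i j ^ 2 := by
    funext z
    simp only [← Finset.sum_sub_distrib]
    exact Finset.sum_congr rfl fun k _ => Finset.sum_congr rfl fun i _ =>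
      Finset.sum_congr rfl fun j _ => by ring
  have e2 : Ex Q (fun z => ∑ i, (2 * P.t (s z i) - s z i ^ 2)) =
      2 * Ex Q (fun z => ∑ i, P.t (s z i)) - Ex Q (fun z => ∑ i, s z i ^ 2) := by
    have ct : Continuous P.t := SP332.t_cont P
    have j1 : Integrable (fun z => ∑ i, P.t (s z i)) (gQ n) := by
      have h4 : BM (gQ n) fun z => (fc U s P.t z).trace :=
        S130.MBM.trace (SP620.bm_fc h hF ct)
      simp only [SP620.fc_trace hF] at h4
      exact BM.int h4
    have j2 : Integrable (fun z => ∑ i, s z i ^ 2) (gQ n) := by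
      have h4 : BM (gQ n) fun z => (fc U s (fun x => x ^ 2) z).trace :=
        S130.MBM.trace (SP620.bm_fc h hF (by fun_prop))
      simp only [SP620.fc_trace hF] at h4
      exact BM.int h4
    rw [← ex_const_mul, ← ex_sub (j1.const_mul 2) j2]
    congr 1
    funext z
    rw [Finset.sum_sub_distrib, Finset.mul_sum]
  rw [e1, ex_sub i1 i2]
  simp only [Finset.sum_sub_distrib, Finset.sum_add_distrib, one_mul] at h1 ⊢
  rw [sum_dF h hF he, sum_nF h hF he, sum_Ups h hF he, h2, e2]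
  rw [Finset.sum_const, Finset.card_univ, Fintype.card_fin, nsmul_eq_mul, mul_one] at h1
  linarith

end Vale.Agent.P254.SP151
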