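import Vale.Agent.P254.SP.H151.MainA

/-! P254 line (SP_0), MAIN, second half (helper151): the variance of a column, with the 1/4-trick. -/

set_option autoImplicit false

open MeasureTheory Matrix

namespace Vale.Agent.P254.SP151

open Vale.Agent.P227.M Vale.Agent.P254.S Vale.Agent.P254.SP Vale.Agent.P254.SP649
open Vale.Agent.P254.S130 (gQ MBM BM MBL BL gQ_prob)

variable {n : ℕ} {P : F1} {φ V : E n → ℝ} {a b M κ : ℝ}
  {U : E n → Matrix (Fin n) (Fin n) ℝ} {s : E n → Fin n → ℝ}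

/-- polynomial growth and measurable -/
def Nc (f : E n → ℝ) : Prop := PG f ∧ AEStronglyMeasurable f (gQ n)

theorem Nc.add {f g : E n → ℝ} (hf : Nc f) (hg : Nc g) : Nc fun z => f z + g z :=
  ⟨hf.1.add hg.1, hf.2.add hg.2⟩
theorem Nc.sub {f g : E n → ℝ} (hf : Nc f) (hg : Nc g) : Nc fun z => f z - g z :=
  ⟨hf.1.sub hg.1, hf.2.sub hg.2⟩
theorem Nc.mul {f g : E n → ℝ} (hf : Nc f) (hg : Nc g) : Nc fun z => f z * g z :=
  ⟨hf.1.mul hg.1, hf.2.mul hg.2⟩
theorem Nc.const (c : ℝ) : Nc fun _ : E n => c := ⟨PG.const c, aestronglyMeasurable_const⟩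
theorem Nc.sum {ι : Type*} (t : Finset ι) {f : ι → E n → ℝ} (h : ∀ k ∈ t, Nc (f k)) :
    Nc fun z => ∑ k ∈ t, f k z :=
  ⟨PG.sum t fun k hk => (h k hk).1, Finset.aestronglyMeasurable_fun_sum t fun k hk => (h k hk).2⟩
theorem Nc.int {f : E n → ℝ} (hf : Nc f) : Integrable f (gQ n) := hf.1.integrable hf.2
theorem Nc.sq {f : E n → ℝ} (hf : Nc f) : Nc fun z => f z ^ 2 := by
  simp only [pow_two]
  exact hf.mul hf
theorem nc_bm {f : E n → ℝ} (hf : BM (gQ n) f) : Nc f := by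
  obtain ⟨h1, B, hB⟩ := hf
  exact ⟨PG.of_bdd hB, h1⟩
theorem nc_lg {f : E n → ℝ} (hf : LG f) : Nc f := ⟨hf.pg, hf.continuous.aestronglyMeasurable⟩
theorem nc_pd {f : E n → ℝ} (hf : LG f) (k : Fin n) : Nc (pd k f) :=
  ⟨hf.pg_pd k, (meas_pd f k).aestronglyMeasurable⟩

/-- vector fields -/
def VNc (v : E n → Fin n → ℝ) : Prop := ∀ i, Nc fun z => v z i

/-- matrix fields -/
def MNc (B : E n → Matrix (Fin n) (Fin n) ℝ) : Prop := ∀ i j, Nc fun z => B z i j

theorem MNc.mulVec {B : E n → Matrix (Fin n) (Fin n) ℝ} {w : E n → Fin n → ℝ} (hB : MNc B)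
    (hw : VNc w) : VNc fun z => B z *ᵥ w z := fun i => by
  simp only [Matrix.mulVec, dotProduct]
  exact Nc.sum _ fun j _ => (hB i j).mul (hw j)

theorem VNc.const (v : Fin n → ℝ) : VNc fun _ : E n => v := fun i => Nc.const (v i)

theorem VNc.add {v w : E n → Fin n → ℝ} (hv : VNc v) (hw : VNc w) : VNc fun z => v z + w z :=
  fun i => (hv i).add (hw i)
theorem VNc.sub {v w : E n → Fin n → ℝ} (hv : VNc v) (hw : VNc w) : VNc fun z => v z - w z :=
  fun i => (hv i).sub (hw i)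
theorem VNc.smul {v : E n → Fin n → ℝ} (c : ℝ) (hv : VNc v) : VNc fun z => c • v z :=
  fun i => (Nc.const c).mul (hv i)
theorem VNc.sum {ι : Type*} (t : Finset ι) {v : ι → E n → Fin n → ℝ} (h : ∀ k ∈ t, VNc (v k)) :
    VNc fun z => ∑ k ∈ t, v k z := fun i => by
  simp only [Finset.sum_apply]
  exact Nc.sum t fun k hk => h k hk i

theorem VNc.dot {v w : E n → Fin n → ℝ} (hv : VNc v) (hw : VNc w) :
    Nc fun z => ∑ i, v z i * w z i := Nc.sum _ fun i _ => (hv i).mul (hw i)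

theorem VNc.sq {v : E n → Fin n → ℝ} (hv : VNc v) : Nc fun z => ∑ i, v z i ^ 2 :=
  Nc.sum _ fun i _ => (hv i).sq

/-! ### frame coordinates -/

/-- frame coordinates of a vector field -/
def fv' (U : E n → Matrix (Fin n) (Fin n) ℝ) (v : E n → Fin n → ℝ) (z : E n) (i : Fin n) : ℝ :=
  ((U z)ᵀ *ᵥ v z) i

theorem fv'_dot (hF : Fr P φ U s) (v w : E n → Fin n → ℝ) (z : E n) :
    ∑ i, fv' U v z i * fv' U w z i = ∑ i, v z i * w z i := orth_dot (hF.orth z) (v z) (w z)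

theorem fv'_sq (hF : Fr P φ U s) (v : E n → Fin n → ℝ) (z : E n) :
    ∑ i, fv' U v z i ^ 2 = ∑ i, v z i ^ 2 := by
  have := fv'_dot hF v v z
  simpa only [← _root_.sq] using this

theorem frame_fc_vec (hF : Fr P φ U s) (f : ℝ → ℝ) (v : Fin n → ℝ) (z : E n) (i : Fin n) :
    ((U z)ᵀ *ᵥ (fc U s f z *ᵥ v)) i = f (s z i) * ((U z)ᵀ *ᵥ v) i := by
  have h1 : (U z)ᵀ * fc U s f z = diagonal (fun k => f (s z k)) * (U z)ᵀ := by
    unfold fc
    calc (U z)ᵀ * (U z * diagonal (fun k => f (s z k)) * (U z)ᵀ)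
        = ((U z)ᵀ * U z) * diagonal (fun k => f (s z k)) * (U z)ᵀ := by
          simp only [Matrix.mul_assoc]
      _ = _ := by rw [SP620.Fr_orth hF z, Matrix.one_mul]
  rw [mulVec_mulVec, h1, ← mulVec_mulVec, mulVec_diagonal]

theorem frame_Kf_vec (h : BP φ V a b M κ) (hF : Fr P φ U s) {f f' : ℝ → ℝ}
    (hf : ∀ x, HasDerivAt f (f' x) x) (hf' : Continuous f') {z : E n} (hz : SP620.Good U s z)
    (k : Fin n) (v : Fin n → ℝ) (i : Fin n) :
    ((U z)ᵀ *ᵥ (SP620.Kf U s f f' k z *ᵥ v)) i = kap f f' U s k v z i := by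
  have h1 : (U z)ᵀ *ᵥ (SP620.Kf U s f f' k z *ᵥ v) =
      ((U z)ᵀ * SP620.Kf U s f f' k z * U z) *ᵥ ((U z)ᵀ *ᵥ v) := by
    rw [mulVec_mulVec, mulVec_mulVec, Matrix.mul_assoc, Matrix.mul_assoc,
      hF.orth z, Matrix.mul_one]
  rw [h1]
  unfold kap xx
  simp only [mulVec, dotProduct]
  refine Finset.sum_congr rfl fun j _ => ?_
  rw [SP620.frame_Kf h hF hf hf' hz]

theorem mnc_fc (h : BP φ V a b M κ) (hF : Fr P φ U s) {f : ℝ → ℝ} (hf : Continuous f) :
    MNc (fc U s f) := fun i j => nc_bm (SP620.bm_fc h hF hf i j)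

theorem mnc_FF (h : BP φ V a b M κ) (hF : Fr P φ U s) : MNc (FF U s) := fun i j =>
  nc_lg (lg_FF h hF i j)

theorem mnc_Fa (h : BP φ V a b M κ) (hF : Fr P φ U s) (k : Fin n) : MNc (Fa U s k) := fun i j =>
  nc_bm (mbm_Fa h hF k i j)

theorem mnc_mul {B C : E n → Matrix (Fin n) (Fin n) ℝ} (hB : MNc B) (hC : MNc C) :
    MNc fun z => B z * C z := fun i j => by
  simp only [mul_apply]
  exact Nc.sum _ fun k _ => (hB i k).mul (hC k j)

theorem mnc_ZZ (h : BP φ V a b M κ) (hF : Fr P φ U s) : MNc (ZZ U s) := fun i j => by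
  unfold ZZ
  simp only [Matrix.sum_apply, mul_apply]
  exact Nc.sum _ fun k _ => Nc.sum _ fun l _ => (mnc_Fa h hF k i l).mul (Nc.const _)

theorem mnc_Kf (h : BP φ V a b M κ) (hF : Fr P φ U s) {f f' : ℝ → ℝ}
    (hf : ∀ x, HasDerivAt f (f' x) x) (hf' : Continuous f') (k : Fin n) :
    MNc (SP620.Kf U s f f' k) := fun i j => by
  have h1 := nc_bm (SP620.mbm_pd_fc (μ := gQ n) h hF hf hf' k i j)
  have h2 := mnc_mul (mnc_fc h hF hf') (fun i j => nc_bm (SP620.mbm_pd_GG (μ := gQ n) h hF k i j)) i j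
  have h3 := h1.sub h2
  unfold SP620.Kf
  simpa only [Matrix.sub_apply] using h3

theorem c_r' (P : F1) : Continuous P.r' := continuous_iff_continuousAt.2 fun x => (P.hr' x).continuousAt
theorem c_r (P : F1) : Continuous P.r := continuous_iff_continuousAt.2 fun x => (P.hr x).continuousAt

/-- the vector field `(X - R) e` -/
noncomputable def va (P : F1) (U : E n → Matrix (Fin n) (Fin n) ℝ) (s : E n → Fin n → ℝ)
    (q : ℝ) (e : Fin n → ℝ) (z : E n) : Fin n → ℝ :=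
  fc U s P.r' z *ᵥ (FF U s z *ᵥ e) + (q - 1) • (fc U s P.r'' z *ᵥ e)
    + fc U s P.r'' z *ᵥ (ZZ U s z *ᵥ e)
    + ∑ k, SP620.Kf U s P.r' P.r'' k z *ᵥ (AA U s k *ᵥ e)

/-- the vector field `(D_k R - Y_k) e` -/
noncomputable def vb (P : F1) (U : E n → Matrix (Fin n) (Fin n) ℝ) (s : E n → Fin n → ℝ)
    (e : Fin n → ℝ) (k : Fin n) (z : E n) : Fin n → ℝ :=
  fc U s P.r' z *ᵥ (Fa U s k z *ᵥ e) + SP620.Kf U s P.r P.r' k z *ᵥ e

theorem vnc_va (h : BP φ V a b M κ) (hF : Fr P φ U s) (q : ℝ) (e : Fin n → ℝ) :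
    VNc (va P U s q e) := by
  have h1 := mnc_fc h hF (c_r' P)
  have h2 := mnc_fc h hF P.r''_cont
  exact (((h1.mulVec ((mnc_FF h hF).mulVec (VNc.const e))).add
    ((h2.mulVec (VNc.const e)).smul _)).add
    (h2.mulVec ((mnc_ZZ h hF).mulVec (VNc.const e)))).add
    (VNc.sum _ fun k _ => (mnc_Kf h hF P.hr' P.r''_cont k).mulVec (VNc.const _))

theorem vnc_vb (h : BP φ V a b M κ) (hF : Fr P φ U s) (e : Fin n → ℝ) (k : Fin n) :
    VNc (vb P U s e k) :=
  ((mnc_fc h hF (c_r' P)).mulVec ((mnc_Fa h hF k).mulVec (VNc.const e))).add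
    ((mnc_Kf h hF P.hr (c_r' P) k).mulVec (VNc.const e))

theorem ae_va (h : BP φ V a b M κ) (hF : Fr P φ U s) (q : ℝ) (e : Fin n → ℝ) {z : E n}
    (hz : SP620.Good U s z) (i : Fin n) : SP.ae P U s q e z i = fv' U (va P U s q e) z i := by
  unfold fv' va
  rw [mulVec_add, mulVec_add, mulVec_add, Pi.add_apply, Pi.add_apply, Pi.add_apply, mulVec_smul,
    Pi.smul_apply, frame_fc_vec hF, frame_fc_vec hF, frame_fc_vec hF, smul_eq_mul]
  have h1 : ((U z)ᵀ *ᵥ ∑ k, SP620.Kf U s P.r' P.r'' k z *ᵥ (AA U s k *ᵥ e)) i =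
      ∑ k, kap P.r' P.r'' U s k ((AA U s k).mulVec e) z i := by
    rw [mulVec_sum, Finset.sum_apply]
    exact Finset.sum_congr rfl fun k _ => frame_Kf_vec h hF P.hr' P.r''_cont hz k _ i
  rw [h1]
  unfold SP.ae SP.col xx
  ring

theorem be_vb (h : BP φ V a b M κ) (hF : Fr P φ U s) (e : Fin n → ℝ) {z : E n}
    (hz : SP620.Good U s z) (k i : Fin n) : be P U s e k z i = fv' U (vb P U s e k) z i := by
  unfold fv' vb
  rw [mulVec_add, Pi.add_apply, frame_fc_vec hF, frame_Kf_vec h hF P.hr (c_r' P) hz]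
  rfl

/-- Young's inequality for fields -/
theorem young_field {v w : E n → Fin n → ℝ} (hv : VNc v) (hw : VNc w) {t : ℝ} (ht : 0 < t) :
    2 * Ex Q (fun z => ∑ i, v z i * w z i) - t * Ex Q (fun z => ∑ i, w z i ^ 2)
      ≤ 1 / t * Ex Q (fun z => ∑ i, v z i ^ 2) := by
  have i1 := (hv.dot hw).int
  have i2 := hw.sq.int
  have i3 := hv.sq.int
  rw [← ex_const_mul, ← ex_const_mul, ← ex_const_mul, ← ex_sub (i1.const_mul 2) (i2.const_mul t),
    S130.Ex_eq, S130.Ex_eq]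
  refine integral_mono ((i1.const_mul 2).sub (i2.const_mul t)) (i3.const_mul _) fun z => ?_
  simp only [Finset.mul_sum, ← Finset.sum_sub_distrib]
  refine Finset.sum_le_sum fun i _ => ?_
  have h1 : 1 / t * v z i ^ 2 - (2 * (v z i * w z i) - t * w z i ^ 2) =
      1 / t * (v z i - t * w z i) ^ 2 := by
    field_simp
    ring
  have h2 : 0 ≤ 1 / t * (v z i - t * w z i) ^ 2 := by positivity
  linarith

theorem half_gap {B δ X θ : ℝ} (h : B ^ 2 ≤ δ * X) (hδ : 0 ≤ δ) (hX : 0 ≤ X) (hθ : 0 < θ) :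
    B / 2 ≤ θ * X + δ / (16 * θ) := by
  have h1 : (B / 2) ^ 2 ≤ (θ * X + δ / (16 * θ)) ^ 2 := by
    have h2 : (θ * X + δ / (16 * θ)) ^ 2 - δ * X / 4 = (θ * X - δ / (16 * θ)) ^ 2 := by
      field_simp
      ring
    nlinarith [sq_nonneg (θ * X - δ / (16 * θ))]
  have h3 : 0 ≤ θ * X + δ / (16 * θ) := by positivity
  exact (abs_le_of_sq_le_sq' h1 h3).2

/-- **MAIN, second half**: the variance of a column -/
theorem mainB (hVar : StmtVar) (hByp : StmtByp1) (h : BP φ V a b M κ) (hF : Fr P φ U s)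
    (h0 : ∀ i j, Ex Q (fun z => GG U s z i j) = 0) {e : Fin n → ℝ} {q : ℝ}
    (hq : (KK U s).mulVec e = q • e) {θ : ℝ} (hθ0 : 0 < θ) (hθ1 : θ < 1) :
    Ex Q (fun z => fe φ e z ^ 2) - (Ex Q (fe φ e)) ^ 2 ≤ Ups P U s e
      + ((Ex Q (fun z => ∑ k, ∑ i, SP.col U (Fa U s k) e z i ^ 2)
          - Ex Q (fun z => ∑ i, SP.col U (FF U s) e z i ^ 2)) / (16 * θ)
        + Ex Q (fun z => ∑ i, (SP.ae P U s q e z i - 1 / 4 * SP.col U (FF U s) e z i) ^ 2)
        + 1 / (1 - θ) * Ex Q (fun z => ∑ k, ∑ i,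
            (be P U s e k z i - 1 / 4 * SP.col U (Fa U s k) e z i) ^ 2)) := by
  have hD : Dat P φ V a b M κ U s := ⟨h, hF⟩
  refine hVar P n φ V a b M κ U s hD e _ fun w hw => ?_
  rw [hByp P n φ V a b M κ U s hD e q hq w hw]
  obtain ⟨hgap, hgap2⟩ := stmtGap P n φ V a b M κ U s hD h0 e
  have hg := hgap2 w hw
  have hnF : 0 ≤ Ex Q (fun z => ∑ i, SP.col U (FF U s) e z i ^ 2) := by
    rw [S130.Ex_eq]
    exact integral_nonneg fun z => Finset.sum_nonneg fun i _ => sq_nonneg _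
  have hX : 0 ≤ Ex Q (fun z => ∑ k, ∑ i, pd k (w i) z ^ 2) := by
    rw [S130.Ex_eq]
    exact integral_nonneg fun z => Finset.sum_nonneg fun i _ => Finset.sum_nonneg fun j _ =>
      sq_nonneg _
  obtain ⟨K, hK⟩ := hw
  have lw : ∀ i, LG (w i) := fun i => LG.of_lipschitz (hK i).1
  -- the fields
  let W : E n → Fin n → ℝ := fun z i => w i z
  let DW : Fin n → E n → Fin n → ℝ := fun k z i => pd k (w i) z
  let yF : E n → Fin n → ℝ := fun z => FF U s z *ᵥ e
  let yk : Fin n → E n → Fin n → ℝ := fun k z => Fa U s k z *ᵥ e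
  have nW : VNc W := fun i => nc_lg (lw i)
  have nDW : ∀ k, VNc (DW k) := fun k i => nc_pd (lw i) k
  have nyF : VNc yF := (mnc_FF h hF).mulVec (VNc.const e)
  have nyk : ∀ k, VNc (yk k) := fun k => (mnc_Fa h hF k).mulVec (VNc.const e)
  have nva := vnc_va h hF q e
  have nvb := fun k => vnc_vb h hF e k
  have nva' : VNc fun z => va P U s q e z - (1 / 4 : ℝ) • yF z := nva.sub (nyF.smul _)
  have nvb' : ∀ k, VNc fun z => vb P U s e k z - (1 / 4 : ℝ) • yk k z := fun k =>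
    (nvb k).sub ((nyk k).smul _)
  have good := SP620.ae_good h hF
  -- rewriting the expectations
  have E1 : Ex Q (fun z => ∑ i, SP.ae P U s q e z i * fr U w z i) =
      Ex Q (fun z => ∑ i, (va P U s q e z - (1 / 4 : ℝ) • yF z) i * W z i)
        + 1 / 4 * Ex Q (fun z => ∑ i, SP.col U (FF U s) e z i * fr U w z i) := by
    rw [← ex_const_mul, ← ex_add (nva'.dot nW).int]
    · refine ex_congr ?_
      filter_upwards [good] with z hz
      have e1 : ∑ i, SP.ae P U s q e z i * fr U w z i = ∑ i, va P U s q e z i * W z i := by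
        rw [← fv'_dot hF (va P U s q e) W z]
        exact Finset.sum_congr rfl fun i _ => by rw [ae_va h hF q e hz]; rfl
      have e2 : ∑ i, SP.col U (FF U s) e z i * fr U w z i = ∑ i, yF z i * W z i := by
        rw [← fv'_dot hF yF W z]
        rfl
      rw [e1, e2, Finset.mul_sum, ← Finset.sum_add_distrib]
      refine Finset.sum_congr rfl fun i _ => ?_
      simp only [Pi.sub_apply, Pi.smul_apply, smul_eq_mul]
      ring
    · refine Integrable.const_mul ?_ _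
      refine ((nyF.dot nW).int).congr (ae_of_all _ fun z => ?_)
      show ∑ i, yF z i * W z i = _
      rw [← fv'_dot hF yF W z]
      rfl
  have E2 : Ex Q (fun z => ∑ k, ∑ i, be P U s e k z i * fr U (fun j => pd k (w j)) z i) =
      ∑ k, Ex Q (fun z => ∑ i, (vb P U s e k z - (1 / 4 : ℝ) • yk k z) i * DW k z i)
        + 1 / 4 * Ex Q (fun z => ∑ k, ∑ i, SP.col U (Fa U s k) e z i
            * fr U (fun j => pd k (w j)) z i) := by
    rw [ex_sum _ fun k _ => ((nvb' k).dot (nDW k)).int, ← ex_const_mul, ← ex_add]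
    · refine ex_congr ?_
      filter_upwards [good] with z hz
      rw [Finset.mul_sum, ← Finset.sum_add_distrib]
      refine Finset.sum_congr rfl fun k _ => ?_
      have e1 : ∑ i, be P U s e k z i * fr U (fun j => pd k (w j)) z i =
          ∑ i, vb P U s e k z i * DW k z i := by
        rw [← fv'_dot hF (vb P U s e k) (DW k) z]
        exact Finset.sum_congr rfl fun i _ => by rw [be_vb h hF e hz]; rfl
      have e2 : ∑ i, SP.col U (Fa U s k) e z i * fr U (fun j => pd k (w j)) z i =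
          ∑ i, yk k z i * DW k z i := by
        rw [← fv'_dot hF (yk k) (DW k) z]
        rfl
      rw [e1, e2, Finset.mul_sum, ← Finset.sum_add_distrib]
      refine Finset.sum_congr rfl fun i _ => ?_
      simp only [Pi.sub_apply, Pi.smul_apply, smul_eq_mul]
      ring
    · exact integrable_finsetSum _ fun k _ => ((nvb' k).dot (nDW k)).int
    · refine Integrable.const_mul (integrable_finsetSum _ fun k _ => ?_) _
      refine (((nyk k).dot (nDW k)).int).congr (ae_of_all _ fun z => ?_)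
      show ∑ i, yk k z i * DW k z i = _
      rw [← fv'_dot hF (yk k) (DW k) z]
      rfl
  have E3 : Ex Q (fun z => ∑ i, (SP.ae P U s q e z i - 1 / 4 * SP.col U (FF U s) e z i) ^ 2) =
      Ex Q (fun z => ∑ i, (va P U s q e z - (1 / 4 : ℝ) • yF z) i ^ 2) := by
    refine ex_congr ?_
    filter_upwards [good] with z hz
    rw [← fv'_sq hF (fun z => va P U s q e z - (1 / 4 : ℝ) • yF z)]
    refine Finset.sum_congr rfl fun i _ => ?_
    rw [ae_va h hF q e hz]
    unfold fv' SP.col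
    rw [mulVec_sub, mulVec_smul, Pi.sub_apply, Pi.smul_apply, smul_eq_mul]
  have E4 : Ex Q (fun z => ∑ k, ∑ i,
        (be P U s e k z i - 1 / 4 * SP.col U (Fa U s k) e z i) ^ 2) =
      ∑ k, Ex Q (fun z => ∑ i, (vb P U s e k z - (1 / 4 : ℝ) • yk k z) i ^ 2) := by
    rw [ex_sum _ fun k _ => (nvb' k).sq.int]
    refine ex_congr ?_
    filter_upwards [good] with z hz
    refine Finset.sum_congr rfl fun k _ => ?_
    rw [← fv'_sq hF (fun z => vb P U s e k z - (1 / 4 : ℝ) • yk k z)]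
    refine Finset.sum_congr rfl fun i _ => ?_
    rw [be_vb h hF e hz]
    unfold fv' SP.col
    rw [mulVec_sub, mulVec_smul, Pi.sub_apply, Pi.smul_apply, smul_eq_mul]
  have E5 : Ex Q (fun z => ∑ k, ∑ i, pd k (w i) z ^ 2) =
      ∑ k, Ex Q (fun z => ∑ i, DW k z i ^ 2) := (ex_sum _ fun k _ => (nDW k).sq.int).symm
  have Y1 := young_field nva' nW one_pos
  have Y2 : ∀ k, 2 * Ex Q (fun z => ∑ i, (vb P U s e k z - (1 / 4 : ℝ) • yk k z) i * (-DW k z i))
      - (1 - θ) * Ex Q (fun z => ∑ i, DW k z i ^ 2)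
      ≤ 1 / (1 - θ) * Ex Q (fun z => ∑ i, (vb P U s e k z - (1 / 4 : ℝ) • yk k z) i ^ 2) := by
    intro k
    have nn : VNc fun z i => -DW k z i := fun i => by
      have := (Nc.const (-1 : ℝ)).mul (nDW k i)
      simpa only [neg_mul, one_mul] using this
    have := young_field (nvb' k) nn (sub_pos.2 hθ1)
    simpa only [neg_sq] using this
  have Y3 := Finset.sum_le_sum (s := Finset.univ) fun k _ => Y2 k
  have E6 : ∀ k, Ex Q (fun z => ∑ i, (vb P U s e k z - (1 / 4 : ℝ) • yk k z) i * (-DW k z i)) =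
      -Ex Q (fun z => ∑ i, (vb P U s e k z - (1 / 4 : ℝ) • yk k z) i * DW k z i) := by
    intro k
    rw [← neg_one_mul (Ex Q _), ← ex_const_mul]
    congr 1
    funext z
    rw [Finset.mul_sum]
    exact Finset.sum_congr rfl fun i _ => by ring
  rw [← neg_sq] at hg
  have Y4 := half_gap hg (by linarith) hX hθ0
  simp only [E6, Finset.sum_sub_distrib, ← Finset.mul_sum, Finset.sum_neg_distrib] at Y3
  rw [E1, E2, E3, E4]
  rw [E5] at Y4 ⊢
  have e7 : Ex Q (fun z => ∑ i, w i z ^ 2) = Ex Q (fun z => ∑ i, W z i ^ 2) := rfl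
  rw [e7]
  rw [one_mul, div_one, one_mul] at Y1
  linarith

end Vale.Agent.P254.SP151
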