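import Vale.Agent.P254.SP.H151.MainB
import Vale.Agent.P254.SP.H151.ColIface
import Vale.Agent.P254.SP.H72.Iface

/-! P254 line (SP_0), MAIN (helper151): from the column certificate `StmtCol` to `StmtFin` and to
`E72.StmtStab`. -/

set_option autoImplicit false

open MeasureTheory Matrix

namespace Vale.Agent.P254.SP151

open Vale.Agent.P227.M Vale.Agent.P254.S Vale.Agent.P254.SP Vale.Agent.P254.SP649
open Vale.Agent.P254.S130 (gQ MBM BM MBL BL gQ_prob)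

variable {n : ℕ} {P : F1} {φ V : E n → ℝ} {a b M κ : ℝ}
  {U : E n → Matrix (Fin n) (Fin n) ℝ} {s : E n → Fin n → ℝ}

/-! ### one column -/

theorem col_le (hVar : StmtVar) (hByp : StmtByp1) (hUps : StmtUps) (h : BP φ V a b M κ)
    (hF : Fr P φ U s) (h0 : ∀ i j, Ex Q (fun z => GG U s z i j) = 0) {e : Fin n → ℝ} {q : ℝ}
    (hq : (KK U s).mulVec e = q • e) (he : ∑ i, e i ^ 2 = 1) {c σ : ℝ} (hc : 0 < c) (hσ : 0 < σ) :
    cT P U s q e c σ / c ≤ nDF U s e - nF U s e + Ups P U s e - Real.log c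
      - (Ex Q (fun z => fe φ e z ^ 2) - (Ex Q (fe φ e)) ^ 2) / c := by
  have hθ0 : 0 < σ / (1 + σ) := by positivity
  have hθ1 : σ / (1 + σ) < 1 := by rw [div_lt_one (by positivity)]; linarith
  have h1 := mainB hVar hByp h hF h0 hq hθ0 hθ1
  have h2 := hUps P n φ V a b M κ U s ⟨h, hF⟩ e q hq he
  have e1 : 1 / (1 - σ / (1 + σ)) = 1 + σ := by
    have : (1 : ℝ) - σ / (1 + σ) = 1 / (1 + σ) := by field_simp; ring
    rw [this, one_div_one_div]
  have e2 : ∀ x : ℝ, x / (16 * (σ / (1 + σ))) = (1 + 1 / σ) / 16 * x := by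
    intro x
    field_simp
    ring
  have e3 : Ex Q (fun z => ∑ k, ∑ i, ∑ j, xx U e z i * uu U s k z i j *
        xx U ((AA U s k).mulVec e) z j *
        ((dd P.r P.r' (s z i) (s z j) - P.r' (s z i))
          + P.r (s z i) * (dd P.r' P.r'' (s z i) (s z j) - P.r'' (s z i))
          - P.r' (s z j) * (dd P.r P.r' (s z i) (s z j) - P.r' (s z j)))) =
      Ex Q (fun z => ∑ i, xx U e z i * kA (ck P) U s e z i) := by
    congr 1
    funext z
    rw [Finset.sum_comm]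
    refine Finset.sum_congr rfl fun i _ => ?_
    unfold kA kk ck
    rw [Finset.mul_sum]
    refine Finset.sum_congr rfl fun k _ => ?_
    rw [Finset.mul_sum]
    exact Finset.sum_congr rfl fun j _ => by ring
  rw [e1, e2] at h1
  rw [e3] at h2
  rw [div_le_iff₀ hc]
  unfold cT
  change _ ≤ (nDF U s e - nF U s e + Ups P U s e - Real.log c
      - (Ex Q (fun z => fe φ e z ^ 2) - (Ex Q (fe φ e)) ^ 2) / c) * c
  have e4 : (nDF U s e - nF U s e + Ups P U s e - Real.log c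
      - (Ex Q (fun z => fe φ e z ^ 2) - (Ex Q (fe φ e)) ^ 2) / c) * c =
      c * (nDF U s e - nF U s e) + c * Ups P U s e - c * Real.log c
      - (Ex Q (fun z => fe φ e z ^ 2) - (Ex Q (fe φ e)) ^ 2) := by
    field_simp
  rw [e4]
  have h3 : Ex Q (fun z => fe φ e z ^ 2) - (Ex Q (fe φ e)) ^ 2 ≤ Ups P U s e
      + ((1 + 1 / σ) / 16 * (nDF U s e - nF U s e)
        + Ex Q (fun z => ∑ i, (SP.ae P U s q e z i - 1 / 4 * SP.col U (FF U s) e z i) ^ 2)
        + (1 + σ) * Ex Q (fun z => ∑ k, ∑ i,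
            (be P U s e k z i - 1 / 4 * SP.col U (Fa U s k) e z i) ^ 2)) := h1
  have h4 : (c - 1) * Ups P U s e = (c - 1) * (1
    + (q - 1) * Ex Q (fun z => ∑ i, (P.r' (s z i) + P.r (s z i) * P.r'' (s z i)) * xx U e z i ^ 2)
    + Ex Q (fun z => ∑ i, (P.r' (s z i) + P.r (s z i) * P.r'' (s z i)) * xx U e z i
        * SP.col U (ZZ U s) e z i)
    + Ex Q (fun z => ∑ i, (P.r (s z i) + P.r (s z i) * P.r' (s z i)) * xx U e z i
        * SP.col U (FF U s) e z i)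
    - Ex Q (fun z => ∑ k, ∑ i, P.r' (s z i) ^ 2 * xx U ((AA U s k).mulVec e) z i
        * SP.col U (Fa U s k) e z i)
    - Ex Q (fun z => ∑ k, ∑ i, be P U s e k z i ^ 2)
    + Ex Q (fun z => ∑ i, xx U e z i * kA (ck P) U s e z i)) := by rw [h2]
  linarith

/-! ### budgets -/

theorem kk_eq (hF : Fr P φ U s) (w : ℝ → ℝ → ℝ) (k : Fin n) (v : Fin n → ℝ) (z : E n) (i : Fin n) :
    kk w U s k v z i =
      ((U z)ᵀ *ᵥ (SP127.sch w (U z) (s z) (pdM k (GG U s) z) *ᵥ v)) i := by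
  have h1 : (U z)ᵀ *ᵥ (SP127.sch w (U z) (s z) (pdM k (GG U s) z) *ᵥ v) =
      ((U z)ᵀ * SP127.sch w (U z) (s z) (pdM k (GG U s) z) * U z) *ᵥ ((U z)ᵀ *ᵥ v) := by
    rw [mulVec_mulVec, mulVec_mulVec, Matrix.mul_assoc, Matrix.mul_assoc,
      hF.orth z, Matrix.mul_one]
  rw [h1]
  unfold kk xx
  simp only [mulVec, dotProduct]
  refine Finset.sum_congr rfl fun j _ => ?_
  rw [SP127.sch_frame (SP620.Fr_orth hF z)]
  rfl

theorem mnc_sch (h : BP φ V a b M κ) (hF : Fr P φ U s) {w : ℝ → ℝ → ℝ}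
    (hw : Continuous fun p : ℝ × ℝ => w p.1 p.2) (k : Fin n) :
    MNc fun z => SP127.sch w (U z) (s z) (pdM k (GG U s) z) := fun i j =>
  nc_bm (SP127.mbm_sch h hF hw (fun i j => SP620.mbm_pd_GG (μ := gQ n) h hF k i j) i j)

/-- sum over the columns of a kernel field -/
theorem sum_kk (h : BP φ V a b M κ) (hF : Fr P φ U s) {w : ℝ → ℝ → ℝ}
    (hw : Continuous fun p : ℝ × ℝ => w p.1 p.2)
    {e : Fin n → Fin n → ℝ} (he : ∀ p p', ∑ i, e p i * e p' i = if p = p' then 1 else 0) :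
    ∑ p, Ex Q (fun z => ∑ k, ∑ i, kk w U s k (e p) z i ^ 2) =
      Ex Q (fun z => ∑ k, ∑ i, ∑ j, w (s z i) (s z j) ^ 2 * uu U s k z i j ^ 2) := by
  have e1 : ∀ p, (fun z => ∑ k, ∑ i, kk w U s k (e p) z i ^ 2) =
      fun z => ∑ k, ∑ i, ((SP127.sch w (U z) (s z) (pdM k (GG U s) z)) *ᵥ e p) i ^ 2 := by
    intro p
    funext z
    refine Finset.sum_congr rfl fun k _ => ?_
    rw [← fv'_sq hF (fun z => SP127.sch w (U z) (s z) (pdM k (GG U s) z) *ᵥ e p)]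
    exact Finset.sum_congr rfl fun i _ => by rw [kk_eq hF]; rfl
  simp only [e1]
  rw [ex_sum _ fun p _ => (Nc.sum _ fun k _ =>
    ((mnc_sch h hF hw k).mulVec (VNc.const (e p))).sq).int]
  refine congrArg _ (funext fun z => ?_)
  rw [Finset.sum_comm]
  refine Finset.sum_congr rfl fun k _ => ?_
  rw [SP427.sum_sq_fam he, ← SP427.frame_hs (hF.orth z)]
  refine Finset.sum_congr rfl fun i _ => Finset.sum_congr rfl fun j _ => ?_
  rw [SP127.sch_frame (SP620.Fr_orth hF z)]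
  unfold uu
  ring

theorem AA_symm (U : E n → Matrix (Fin n) (Fin n) ℝ) (s : E n → Fin n → ℝ) (k : Fin n) :
    (AA U s k).IsSymm := by
  ext i j
  show Ex Q (fun z => pdM k (GG U s) z j i) = Ex Q (fun z => pdM k (GG U s) z i j)
  congr 1
  funext z
  exact congrFun (congrFun (SP620.pdG_symm U s k z) i) j

/-- Bessel for matrix fields -/
theorem bes_field {e : Fin n → Fin n → ℝ} {q : Fin n → ℝ}
    (he : ∀ p p', ∑ i, e p i * e p' i = if p = p' then 1 else 0)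
    (hq : ∀ p, (KK U s).mulVec (e p) = q p • e p)
    {B : Fin n → E n → Matrix (Fin n) (Fin n) ℝ} (hB : ∀ k, MNc (B k)) :
    ∑ p, (q p)⁻¹ * Ex Q (fun z => ∑ i, (∑ k, (B k z *ᵥ (AA U s k *ᵥ e p)) i) ^ 2) ≤
      Ex Q (fun z => ∑ k, ∑ i, ∑ j, B k z i j ^ 2) := by
  have n1 : ∀ p, Nc fun z => ∑ i, (∑ k, (B k z *ᵥ (AA U s k *ᵥ e p)) i) ^ 2 := fun p =>
    Nc.sum _ fun i _ => (Nc.sum _ fun k _ => (hB k).mulVec (VNc.const _) i).sq
  have n2 : Nc fun z => ∑ k, ∑ i, ∑ j, B k z i j ^ 2 :=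
    Nc.sum _ fun k _ => Nc.sum _ fun i _ => Nc.sum _ fun j _ => (hB k i j).sq
  simp only [← ex_const_mul]
  rw [ex_sum _ fun p _ => (n1 p).int.const_mul _, S130.Ex_eq, S130.Ex_eq]
  refine integral_mono (integrable_finsetSum _ fun p _ => (n1 p).int.const_mul _) n2.int
    fun z => ?_
  exact (SP427.stmtBes n (AA U s) (fun k => B k z) (AA_symm U s) e q he hq).2.2

theorem sum_kA (h : BP φ V a b M κ) (hF : Fr P φ U s) {w : ℝ → ℝ → ℝ}
    (hw : Continuous fun p : ℝ × ℝ => w p.1 p.2) {e : Fin n → Fin n → ℝ} {q : Fin n → ℝ}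
    (he : ∀ p p', ∑ i, e p i * e p' i = if p = p' then 1 else 0)
    (hq : ∀ p, (KK U s).mulVec (e p) = q p • e p) :
    ∑ p, (q p)⁻¹ * Ex Q (fun z => ∑ i, kA w U s (e p) z i ^ 2) ≤
      Ex Q (fun z => ∑ k, ∑ i, ∑ j, w (s z i) (s z j) ^ 2 * uu U s k z i j ^ 2) := by
  have h1 := bes_field he hq (B := fun k z => SP127.sch w (U z) (s z) (pdM k (GG U s) z))
    fun k => mnc_sch h hF hw k
  have e1 : ∀ p, (fun z => ∑ i, kA w U s (e p) z i ^ 2) = fun z => ∑ i, (∑ k,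
      (SP127.sch w (U z) (s z) (pdM k (GG U s) z) *ᵥ (AA U s k *ᵥ e p)) i) ^ 2 := by
    intro p
    funext z
    have e2 : ∀ i, ∑ k, (SP127.sch w (U z) (s z) (pdM k (GG U s) z) *ᵥ (AA U s k *ᵥ e p)) i =
        (∑ k, SP127.sch w (U z) (s z) (pdM k (GG U s) z) *ᵥ (AA U s k *ᵥ e p)) i := fun i => by
      rw [Finset.sum_apply]
    simp only [e2]
    rw [← fv'_sq hF (fun z => ∑ k, SP127.sch w (U z) (s z) (pdM k (GG U s) z) *ᵥ
      (AA U s k *ᵥ e p))]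
    refine Finset.sum_congr rfl fun i _ => ?_
    congr 1
    unfold fv' kA
    rw [mulVec_sum, Finset.sum_apply]
    exact Finset.sum_congr rfl fun k _ => kk_eq hF w k _ z i
  simp only [e1]
  refine h1.trans (le_of_eq (congrArg _ (funext fun z => ?_)))
  refine Finset.sum_congr rfl fun k _ => ?_
  rw [← SP427.frame_hs (hF.orth z)]
  refine Finset.sum_congr rfl fun i _ => Finset.sum_congr rfl fun j _ => ?_
  rw [SP127.sch_frame (SP620.Fr_orth hF z)]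
  unfold uu
  ring

/-- Bessel for `Z` -/
theorem sum_nZ (h : BP φ V a b M κ) (hF : Fr P φ U s) {e : Fin n → Fin n → ℝ} {q : Fin n → ℝ}
    (he : ∀ p p', ∑ i, e p i * e p' i = if p = p' then 1 else 0)
    (hq : ∀ p, (KK U s).mulVec (e p) = q p • e p) :
    ∑ p, (q p)⁻¹ * nZ U s (e p) ≤ ∑ p, nDF U s (e p) := by
  have h1 := bes_field he hq (B := Fa U s) fun k => mnc_Fa h hF k
  have e1 : ∀ p, nZ U s (e p) = Ex Q (fun z => ∑ i, (∑ k,
      (Fa U s k z *ᵥ (AA U s k *ᵥ e p)) i) ^ 2) := by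
    intro p
    unfold nZ
    congr 1
    funext z
    have e2 : ∀ i, ∑ k, (Fa U s k z *ᵥ (AA U s k *ᵥ e p)) i = (ZZ U s z *ᵥ e p) i := fun i => by
      unfold ZZ
      rw [Matrix.sum_mulVec, Finset.sum_apply]
      exact Finset.sum_congr rfl fun k _ => by rw [mulVec_mulVec]
    simp only [e2]
    exact fv'_sq hF (fun z => ZZ U s z *ᵥ e p) z
  have e3 : ∑ p, nDF U s (e p) = Ex Q (fun z => ∑ k, ∑ i, ∑ j, Fa U s k z i j ^ 2) := by
    unfold nDF
    have e4 : ∀ p, (fun z => ∑ k, ∑ i, SP.col U (Fa U s k) (e p) z i ^ 2) =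
        fun z => ∑ k, ∑ i, ((Fa U s k z).mulVec (e p)) i ^ 2 := fun p => by
      funext z
      exact Finset.sum_congr rfl fun k _ => colF_sq hF (e p) k z
    simp only [e4]
    rw [ex_sum _ fun p _ => (Nc.sum _ fun k _ => ((mnc_Fa h hF k).mulVec (VNc.const (e p))).sq).int]
    refine congrArg _ (funext fun z => ?_)
    rw [Finset.sum_comm]
    exact Finset.sum_congr rfl fun k _ => SP427.sum_sq_fam he _
  rw [e3]
  simp only [e1]
  exact h1

/-- the hypotheses on the kernels -/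
structure KerBd (P : F1) (b₁ C₁ : ℝ) {N : ℕ} (w : Fin N → ℝ → ℝ → ℝ) (bw Cw : Fin N → ℝ) :
    Prop where
  b1 : 0 ≤ b₁
  bw0 : ∀ m, 0 ≤ bw m
  cont : ∀ m, Continuous fun p : ℝ × ℝ => w m p.1 p.2
  k1 : ∀ x y, (dd P.r P.r' x y - P.r' x) ^ 2 ≤ C₁ * (wσ P x y - 1)
  kw : ∀ m x y, w m x y ^ 2 ≤ Cw m * (wσ P x y - 1)
  wσ1 : ∀ x y, 1 ≤ wσ P x y
  sum : b₁ * C₁ + ∑ m, bw m * Cw m ≤ 1

/-- the slack of the energy inequality -/
noncomputable def Xtr (P : F1) (U : E n → Matrix (Fin n) (Fin n) ℝ) (s : E n → Fin n → ℝ) : ℝ :=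
  Ex Q (fun z => ∑ k, ∑ i, ∑ j, (wσ P (s z i) (s z j) - 1) * uu U s k z i j ^ 2)

theorem ker_le (h : BP φ V a b M κ) (hF : Fr P φ U s) {w : ℝ → ℝ → ℝ}
    (hw : Continuous fun p : ℝ × ℝ => w p.1 p.2) {C : ℝ}
    (hC : ∀ x y, w x y ^ 2 ≤ C * (wσ P x y - 1)) :
    Ex Q (fun z => ∑ k, ∑ i, ∑ j, w (s z i) (s z j) ^ 2 * uu U s k z i j ^ 2) ≤
      C * Xtr P U s := by
  have i1 := BM.int (bm_uu2 h hF (w := fun x y => w x y ^ 2) (hw.pow 2))
  have hc : Continuous fun p : ℝ × ℝ => wσ P p.1 p.2 - 1 :=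
    (SP127.wσ_continuous P).sub continuous_const
  have i2 := BM.int (bm_uu2 h hF (w := fun x y => wσ P x y - 1) hc)
  unfold Xtr
  rw [← ex_const_mul, S130.Ex_eq, S130.Ex_eq]
  refine integral_mono i1 (i2.const_mul _) fun z => ?_
  simp only [Finset.mul_sum]
  refine Finset.sum_le_sum fun k _ => Finset.sum_le_sum fun i _ => Finset.sum_le_sum fun j _ => ?_
  rw [← mul_assoc]
  exact mul_le_mul_of_nonneg_right (hC _ _) (sq_nonneg _)

theorem kap_eq (f f' : ℝ → ℝ) (k : Fin n) (v : Fin n → ℝ) (z : E n) (i : Fin n) :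
    kap f f' U s k v z i = kk (fun x y => dd f f' x y - f' x) U s k v z i := rfl

theorem sum_aux {N : ℕ} (ρ ν b : ℝ) (A B C D : Fin n → ℝ) (F : Fin N → Fin n → ℝ) :
    ∑ p, (ρ * A p - (-(ν * B p) + ν * C p + b * D p + ∑ m, F m p)) =
      ρ * ∑ p, A p - (-(ν * ∑ p, B p) + ν * ∑ p, C p + b * ∑ p, D p + ∑ m, ∑ p, F m p) := by
  rw [Finset.sum_sub_distrib, Finset.sum_add_distrib, Finset.sum_add_distrib,
    Finset.sum_add_distrib, Finset.sum_neg_distrib, Finset.mul_sum, Finset.mul_sum, Finset.mul_sum,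
    Finset.mul_sum, Finset.sum_comm (f := fun p m => F m p)]

/-- **MAIN**: the sum over the columns -/
theorem main_sum (hVar : StmtVar) (hByp : StmtByp1) (hUps : StmtUps) {ν b₁ C₁ : ℝ} {N : ℕ}
    {w : Fin N → ℝ → ℝ → ℝ} {bw Cw : Fin N → ℝ} {ρ : ℝ} (hν : 0 ≤ ν)
    (hK : KerBd P b₁ C₁ w bw Cw) (hCol : StmtCol P ν b₁ w bw ρ) {c C : ℝ} (hV : Reg V c C)
    (h : BP φ V a b M κ) (hF : Fr P φ U s) (h0 : ∀ i j, Ex Q (fun z => GG U s z i j) = 0)
    {e : Fin n → Fin n → ℝ} {q : Fin n → ℝ}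
    (he : ∀ p p', ∑ i, e p i * e p' i = if p = p' then 1 else 0)
    (hq : ∀ p, (KK U s).mulVec (e p) = q p • e p) (hq0 : ∀ p, 0 ≤ q p) :
    2 * (n : ℝ) + Real.log (covV V).det
      + ρ * ∑ p, (nF U s (e p) + min 1 ((q p - 1) ^ 2)) ≤ 2 * entV V := by
  have hn : ∀ p, ∑ i, e p i ^ 2 = 1 := fun p => by
    have := he p p
    simpa only [if_true, ← _root_.sq] using this
  choose γ σ hγ hσ hcol using fun p => hCol n φ V a b M κ U s ⟨h, hF⟩ h0 (e p) (q p) (hq p) (hn p)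
    (hq0 p)
  have hA := mainA hV h hF he hγ
  have hp : ∀ p, ρ * (nF U s (e p) + min 1 ((q p - 1) ^ 2))
      - (-(ν * nDF U s (e p)) + ν * (q p)⁻¹ * nZ U s (e p)
        + b₁ * Ex Q (fun z => ∑ k, ∑ i, kap P.r P.r' U s k (e p) z i ^ 2)
        + ∑ m, bw m * ((q p)⁻¹ * Ex Q (fun z => ∑ i, kA (w m) U s (e p) z i ^ 2))) ≤
      nDF U s (e p) - nF U s (e p) + Ups P U s (e p) - Real.log (γ p)
      - (Ex Q (fun z => fe φ (e p) z ^ 2) - (Ex Q (fe φ (e p))) ^ 2) / γ p := by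
    intro p
    have h1 := col_le hVar hByp hUps h hF h0 (hq p) (hn p) (hγ p) (hσ p)
    refine le_trans ?_ h1
    rw [le_div_iff₀ (hγ p)]
    have := hcol p
    nlinarith [this]
  have hs := Finset.sum_le_sum (s := Finset.univ) fun p _ => hp p
  have e1 := sum_aux ρ ν b₁ (fun p => nF U s (e p) + min 1 ((q p - 1) ^ 2))
    (fun p => nDF U s (e p)) (fun p => (q p)⁻¹ * nZ U s (e p))
    (fun p => Ex Q (fun z => ∑ k, ∑ i, kap P.r P.r' U s k (e p) z i ^ 2))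
    (fun m p => bw m * ((q p)⁻¹ * Ex Q (fun z => ∑ i, kA (w m) U s (e p) z i ^ 2)))
  simp only [← mul_assoc ν] at e1
  rw [e1] at hs
  have hw1 : Continuous fun p : ℝ × ℝ => dd P.r P.r' p.1 p.2 - P.r' p.1 :=
    (SP127.dd_continuous P.hr (c_r' P)).sub ((c_r' P).comp continuous_fst)
  have k1 : ∑ p, Ex Q (fun z => ∑ k, ∑ i, kap P.r P.r' U s k (e p) z i ^ 2) ≤ C₁ * Xtr P U s := by
    simp only [kap_eq]
    rw [sum_kk h hF (w := fun x y => dd P.r P.r' x y - P.r' x) hw1 he]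
    exact ker_le h hF (w := fun x y => dd P.r P.r' x y - P.r' x) hw1 hK.k1
  have k2 : ∀ m, ∑ p, (q p)⁻¹ * Ex Q (fun z => ∑ i, kA (w m) U s (e p) z i ^ 2) ≤
      Cw m * Xtr P U s := fun m =>
    (sum_kA h hF (hK.cont m) he hq).trans (ker_le h hF (hK.cont m) (hK.kw m))
  have k3 : ∑ m, ∑ p, bw m * ((q p)⁻¹ * Ex Q (fun z => ∑ i, kA (w m) U s (e p) z i ^ 2)) ≤
      (∑ m, bw m * Cw m) * Xtr P U s := by
    rw [Finset.sum_mul]
    refine Finset.sum_le_sum fun m _ => ?_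
    rw [← Finset.mul_sum, mul_assoc]
    exact mul_le_mul_of_nonneg_left (k2 m) (hK.bw0 m)
  have kZ := mul_le_mul_of_nonneg_left (sum_nZ h hF he hq) hν
  have kX : 0 ≤ Xtr P U s := by
    unfold Xtr
    rw [S130.Ex_eq]
    refine integral_nonneg fun z => Finset.sum_nonneg fun k _ => Finset.sum_nonneg fun i _ =>
      Finset.sum_nonneg fun j _ => mul_nonneg (by linarith [hK.wσ1 (s z i) (s z j)]) (sq_nonneg _)
  have k4 := mul_le_mul_of_nonneg_left k1 hK.b1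
  have k5 : (b₁ * C₁ + ∑ m, bw m * Cw m) * Xtr P U s ≤ Xtr P U s := by
    have := mul_le_mul_of_nonneg_right hK.sum kX
    rwa [one_mul] at this
  have hX : Ex Q (fun z => ∑ k, ∑ i, ∑ j, (wσ P (s z i) (s z j) - 1) * uu U s k z i j ^ 2) =
      Xtr P U s := rfl
  rw [hX] at hA
  have e2 : ν * ∑ p, (q p)⁻¹ * nZ U s (e p) = ν * ∑ p, (q p)⁻¹ * nZ U s (e p) := rfl
  have hA' : 2 * (n : ℝ) + Real.log (covV V).det + Xtr P U s
      + ∑ p, (nDF U s (e p) - nF U s (e p) + Ups P U s (e p) - Real.log (γ p)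
      - (Ex Q (fun z => fe φ (e p) z ^ 2) - (Ex Q (fe φ (e p))) ^ 2) / γ p) ≤ 2 * entV V := hA
  rw [add_mul] at k5
  linarith

theorem nF_nonneg (U : E n → Matrix (Fin n) (Fin n) ℝ) (s : E n → Fin n → ℝ) (e : Fin n → ℝ) :
    0 ≤ nF U s e := by
  unfold nF
  rw [S130.Ex_eq]
  exact integral_nonneg fun z => Finset.sum_nonneg fun i _ => sq_nonneg _

theorem rem_nonneg (U : E n → Matrix (Fin n) (Fin n) ℝ) (s : E n → Fin n → ℝ)
    (e : Fin n → Fin n → ℝ) (q : Fin n → ℝ) :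
    0 ≤ ∑ p, (nF U s (e p) + min 1 ((q p - 1) ^ 2)) :=
  Finset.sum_nonneg fun p _ => add_nonneg (nF_nonneg U s (e p)) (le_min zero_le_one (sq_nonneg _))

/-- **the inequality** -/
theorem fin_of (hVar : StmtVar) (hByp : StmtByp1) (hUps : StmtUps) {ν b₁ C₁ : ℝ} {N : ℕ}
    {w : Fin N → ℝ → ℝ → ℝ} {bw Cw : Fin N → ℝ} {ρ : ℝ} (hν : 0 ≤ ν) (hρ : 0 ≤ ρ)
    (hK : KerBd P b₁ C₁ w bw Cw) (hCol : StmtCol P ν b₁ w bw ρ) : StmtFin P := by
  intro n φ V c C a b M κ hV h U s hF h0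
  obtain ⟨e, q, he, hq, hq0⟩ := SP427.exists_eig' (A := AA U s) (AA_symm U s)
  have h1 := main_sum hVar hByp hUps hν hK hCol hV h hF h0 he hq hq0
  have h2 := mul_nonneg hρ (rem_nonneg U s e q)
  linarith

theorem A1_eq (h : BP φ V a b M κ) (hF : Fr P φ U s) (k : Fin n) : E72.A1 U s k = AA U s k := by
  ext i j
  exact int_zG h hF k i j

theorem sum_nF' (h : BP φ V a b M κ) (hF : Fr P φ U s)
    {e : Fin n → Fin n → ℝ} (he : ∀ p p', ∑ i, e p i * e p' i = if p = p' then 1 else 0) :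
    ∑ p, nF U s (e p) = E72.nlin U s := by
  have hl : ∀ p i, LG fun z => ((FF U s z).mulVec (e p)) i := fun p i => by
    simp only [mulVec, dotProduct]
    exact LG.sum _ fun j _ => (lg_FF h hF i j).mul (LG.const _)
  have e1 : ∀ p, (fun z => ∑ i, SP.col U (FF U s) (e p) z i ^ 2) =
      fun z => ∑ i, ((FF U s z).mulVec (e p)) i ^ 2 := fun p => by
    funext z
    exact col_sq hF (e p) z
  unfold nF E72.nlin
  simp only [e1]
  rw [ex_sum _ fun p _ => (LG.sum _ fun i _ => (hl p i).pow 2).integrable]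
  congr 1
  funext z
  rw [SP427.sum_sq_fam he]
  refine Finset.sum_congr rfl fun i _ => Finset.sum_congr rfl fun j _ => ?_
  rw [FF_apply]
  simp only [A1_eq h hF]

theorem dfK_eq (h : BP φ V a b M κ) (hF : Fr P φ U s) {e : Fin n → Fin n → ℝ} {q : Fin n → ℝ}
    (he : ∀ p p', ∑ i, e p i * e p' i = if p = p' then 1 else 0)
    (hq : ∀ p, (KK U s).mulVec (e p) = q p • e p) :
    E72.dfK U s = ∑ p, (q p - 1) ^ 2 := by
  unfold E72.dfK
  simp only [A1_eq h hF]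
  have h1 := SP427.sum_sq_fam he ((∑ k, AA U s k * AA U s k) - 1)
  simp only [Matrix.sub_apply] at h1
  rw [← h1]
  refine Finset.sum_congr rfl fun p _ => ?_
  have h2 : ((∑ k, AA U s k * AA U s k) - 1) *ᵥ e p = (q p - 1) • e p := by
    have h3 := hq p
    unfold KK at h3
    rw [sub_mulVec, one_mulVec, h3, sub_smul, one_smul]
  rw [h2]
  simp only [Pi.smul_apply, smul_eq_mul, mul_pow]
  rw [← Finset.mul_sum]
  have h4 := he p p
  simp only [if_true, ← _root_.sq] at h4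
  rw [h4, mul_one]

theorem min_sum_le {q : Fin n → ℝ} :
    min 1 (∑ p, (q p - 1) ^ 2) ≤ ∑ p, min 1 ((q p - 1) ^ 2) := by
  by_cases hc : ∃ p, 1 ≤ (q p - 1) ^ 2
  · obtain ⟨p, hp⟩ := hc
    refine (min_le_left _ _).trans ?_
    have h1 : min 1 ((q p - 1) ^ 2) = 1 := min_eq_left hp
    have h2 := Finset.single_le_sum (f := fun p => min 1 ((q p - 1) ^ 2))
      (fun i _ => le_min zero_le_one (sq_nonneg _)) (Finset.mem_univ p)
    exact h1.symm.le.trans h2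
  · push Not at hc
    refine (min_le_right _ _).trans (le_of_eq ?_)
    exact Finset.sum_congr rfl fun p _ => (min_eq_right (hc p).le).symm

/-- **the stability form** (72) -/
theorem stab_of (hVar : StmtVar) (hByp : StmtByp1) (hUps : StmtUps) {ν b₁ C₁ : ℝ} {N : ℕ}
    {w : Fin N → ℝ → ℝ → ℝ} {bw Cw : Fin N → ℝ} {ρ : ℝ} (hν : 0 ≤ ν) (hρ : 0 < ρ)
    (hK : KerBd P b₁ C₁ w bw Cw) (hCol : StmtCol P ν b₁ w bw ρ) : E72.StmtStab P := by
  intro n
  refine ⟨ρ, hρ, ?_⟩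
  intro φ V c C a b M κ hV h U s hF h0
  obtain ⟨e, q, he, hq, hq0⟩ := SP427.exists_eig' (A := AA U s) (AA_symm U s)
  have h1 := main_sum hVar hByp hUps hν hK hCol hV h hF h0 he hq hq0
  rw [Finset.sum_add_distrib, sum_nF' h hF he] at h1
  have h2 : min 1 (E72.dfK U s) ≤ ∑ p, min 1 ((q p - 1) ^ 2) := by
    rw [dfK_eq h hF he hq]
    exact min_sum_le
  have h3 := mul_le_mul_of_nonneg_left h2 hρ.le
  linarith

end Vale.Agent.P254.SP151
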