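import Vale.Agent.P254.SP.H151.MainC
import Vale.Agent.P254.SP.H692.Var
import Vale.Agent.P254.SP.H512.Byp1Inst
import Vale.Agent.P254.SP.H545.StUps

/-! P254 line (SP_0), MAIN (helper151): `MainC` with the analytic rows inserted. The only hypotheses
left are the kernel bounds `KerBd` and the column certificate `StmtCol`. -/

set_option autoImplicit false

namespace Vale.Agent.P254.SP151

open Vale.Agent.P254.S Vale.Agent.P254.SP

/-- **the stability form** from the kernel bounds and the column certificate -/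
theorem stab {P : F1} {ν b₁ C₁ : ℝ} {N : ℕ} {w : Fin N → ℝ → ℝ → ℝ} {bw Cw : Fin N → ℝ} {ρ : ℝ}
    (hν : 0 ≤ ν) (hρ : 0 < ρ) (hK : KerBd P b₁ C₁ w bw Cw) (hCol : StmtCol P ν b₁ w bw ρ) :
    E72.StmtStab P :=
  stab_of H692.stmtVar SP512.stmtByp1 H545.stmtUps hν hρ hK hCol

end Vale.Agent.P254.SP151
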